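import Vale.Agent.P198.D.Defs

/-! # P198 D/AbsA

Optimal representatives (helper names start with absa_).  `abs_le`: `pos` for `‖θ‖ • 1 ± θ`.  `cont`: polarization and `abs_le` bound `|B θ u v|` by `‖θ‖ * c` (`AddMonoidHomClass.continuous_of_bound` / `LinearMap.mkContinuous`).
`null`: for `θ ≥ 0` the quadratic `t ↦ B θ (w + t d) (w + t d) ≥ 0` has `B θ d d = 0`; general `θ = (θ + ‖θ‖) - ‖θ‖`.  `exists_opt`: `M = sInf {B 1 v v | p v = p u}`, `diag`, `opt_of_min`.
`exists_sec`: the optimal elements form a submodule `O`; `p : O → range p` is onto; `LinearMap.exists_rightInverse_of_surjective`, `LinearMap.exists_extend`.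
`opt_inv`: compare with `P g⁻¹`, `pull g⁻¹ (pull g f) = f`, `pull g 1 = 1`, `Opt.le`, `opt_of_min`.
-/

set_option linter.unusedSectionVars false

namespace Vale.Agent.P198
open Set Metric Filter Topology MeasureTheory
variable {G Z : Type} [Group G] [MetricSpace Z] [CompactSpace Z] [MulAction G Z]
  [ContinuousConstSMul G Z]
  {X : GP G Z} {R : ℕ} {V : Type} [AddCommGroup V] [Module ℝ V]

theorem absa_exp (P : Pre X R V) (θ : C(Z, ℝ)) (u d : V) (t : ℝ) :
    P.B θ (u + t • d) (u + t • d) = P.B θ d d * (t * t) + 2 * P.B θ u d * t + P.B θ u u := by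
  simp only [map_add, map_smul, LinearMap.add_apply, LinearMap.smul_apply, smul_eq_mul,
    P.symm θ d u]
  ring

theorem absa_cs (P : Pre X R V) {θ : C(Z, ℝ)} (hθ : ∀ ξ, 0 ≤ θ ξ) (u d : V) :
    P.B θ u d ^ 2 ≤ P.B θ d d * P.B θ u u := by
  have := discrim_le_zero (a := P.B θ d d) (b := 2 * P.B θ u d) (c := P.B θ u u) fun t => by
    rw [← absa_exp]; exact P.pos θ _ hθ
  rw [discrim] at this
  linarith

theorem absa_one (P : Pre X R V) (v : V) : 0 ≤ P.B 1 v v := P.pos 1 v fun _ => zero_le_one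

theorem absa_add (θ : C(Z, ℝ)) (ξ : Z) : 0 ≤ (‖θ‖ • (1 : C(Z, ℝ)) + θ) ξ := by
  have := (abs_le.1 (θ.norm_coe_le_norm ξ)).1
  simp only [ContinuousMap.add_apply, ContinuousMap.smul_apply, ContinuousMap.one_apply,
    smul_eq_mul, mul_one]
  linarith

theorem Pre.abs_le (P : Pre X R V) (θ : C(Z, ℝ)) (v : V) : |P.B θ v v| ≤ ‖θ‖ * P.B 1 v v := by
  have h1 := P.pos _ v (absa_add θ)
  have h2 := P.pos _ v (absa_add (-θ))
  simp only [map_add, map_smul, map_neg, LinearMap.add_apply, LinearMap.smul_apply,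
    LinearMap.neg_apply, smul_eq_mul, norm_neg] at h1 h2
  exact _root_.abs_le.2 ⟨by linarith, by linarith⟩

theorem absa_cont (P : Pre X R V) (v : V) : Continuous fun θ => P.B θ v v := by
  let l : C(Z, ℝ) →ₗ[ℝ] ℝ :=
    { toFun := fun θ => P.B θ v v
      map_add' := fun a b => by simp
      map_smul' := fun a b => by simp }
  exact AddMonoidHomClass.continuous_of_bound l (P.B 1 v v) fun θ => by
    rw [mul_comm]; exact P.abs_le θ v

theorem Pre.cont (P : Pre X R V) (u v : V) : Continuous fun θ => P.B θ u v := by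
  have e : (fun θ => P.B θ u v) = fun θ =>
      (P.B θ (u + (1 : ℝ) • v) (u + (1 : ℝ) • v) - P.B θ u u - P.B θ v v) / 2 := by
    funext θ
    rw [absa_exp]
    ring
  rw [e]
  exact (((absa_cont P _).sub (absa_cont P u)).sub (absa_cont P v)).div_const 2

theorem absa_null (P : Pre X R V) {d : V} (hd : P.B 1 d d = 0) {θ : C(Z, ℝ)} (hθ : ∀ ξ, 0 ≤ θ ξ)
    (w : V) : P.B θ w d = 0 := by
  have h1 := P.abs_le θ d
  rw [hd, mul_zero, abs_nonpos_iff] at h1
  have h2 := absa_cs P hθ w d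
  rw [h1, zero_mul] at h2
  exact pow_eq_zero_iff two_ne_zero |>.1 (le_antisymm h2 (sq_nonneg _))

theorem Pre.null (P : Pre X R V) {d : V} (hd : P.B 1 d d = 0) (θ : C(Z, ℝ)) (w : V) :
    P.B θ w d = 0 := by
  have h1 := absa_null P hd (absa_add θ) w
  have h2 := absa_null P hd (θ := 1) (fun _ => zero_le_one) w
  simp only [map_add, map_smul, LinearMap.add_apply, LinearMap.smul_apply, smul_eq_mul, h2] at h1
  linarith

theorem Pre.Opt.le {P : Pre X R V} {u v : V} (hv : P.Opt v) (e : P.p u = P.p v) :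
    P.B 1 v v ≤ P.B 1 u u := by
  have h1 := absa_exp P 1 v (u - v) 1
  rw [one_smul, add_sub_cancel, hv (u - v) (by rw [map_sub, e, sub_self])] at h1
  linarith [absa_one P (u - v)]

theorem Pre.opt_of_min (P : Pre X R V) {v : V} (hv : ∀ u, P.p u = P.p v → P.B 1 v v ≤ P.B 1 u u) :
    P.Opt v := by
  intro d hd
  have := discrim_le_zero (a := P.B 1 d d) (b := 2 * P.B 1 v d) (c := 0) fun t => by
    have h1 := hv (v + t • d) (by rw [map_add, map_smul, hd, smul_zero, add_zero])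
    rw [absa_exp] at h1
    linarith
  rw [discrim] at this
  exact pow_eq_zero_iff two_ne_zero |>.1 (le_antisymm (by linarith) (sq_nonneg _))

theorem Pre.exists_opt (P : Pre X R V) (u : V) : ∃ v, P.Opt v ∧ P.p v = P.p u := by
  set A : Set ℝ := {m | ∃ v, P.p v = P.p u ∧ P.B 1 v v = m} with hA
  have hne : A.Nonempty := ⟨_, u, rfl, rfl⟩
  have hb : BddBelow A := ⟨0, by rintro _ ⟨v, -, rfl⟩; exact absa_one P v⟩
  obtain ⟨v, h1, h2⟩ := P.diag (P.p u) (sInf A) fun η hη => by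
    obtain ⟨_, ⟨v, h1, rfl⟩, h2⟩ := Real.lt_sInf_add_pos hne hη
    exact ⟨v, by rw [h1, dist_self]; exact hη.le, h2.le⟩
  exact ⟨v, P.opt_of_min fun w hw => h2.trans (csInf_le hb ⟨w, hw.trans h1, rfl⟩), h1⟩

theorem Pre.Opt.congr {P : Pre X R V} {u v : V} (hu : P.Opt u) (hv : P.Opt v) (e : P.p u = P.p v)
    (θ : C(Z, ℝ)) (w : V) : P.B θ w u = P.B θ w v := by
  have h0 : P.p (u - v) = 0 := by rw [map_sub, e, sub_self]
  have h1 : P.B 1 (u - v) (u - v) = 0 := by
    nth_rewrite 1 [map_sub]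
    rw [P.symm 1 _ u, P.symm 1 _ v, hu _ h0, hv _ h0, sub_self]
  have h2 := P.null h1 θ w
  rwa [map_sub, sub_eq_zero] at h2

theorem Pre.exists_sec (P : Pre X R V) :
    ∃ S : C(Z, ℝ) →ₗ[ℝ] V, (∀ f, P.Opt (S f)) ∧ ∀ u, P.p (S (P.p u)) = P.p u := by
  let O : Submodule ℝ V :=
    { carrier := {v | P.Opt v}
      add_mem' := fun {a b} ha hb d hd => by
        rw [map_add, LinearMap.add_apply, ha d hd, hb d hd, add_zero]
      zero_mem' := fun d _ => by simp
      smul_mem' := fun c a ha d hd => by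
        rw [map_smul, LinearMap.smul_apply, ha d hd, smul_zero] }
  let φ : O →ₗ[ℝ] LinearMap.range P.p := P.p.rangeRestrict.comp O.subtype
  have hφ : LinearMap.range φ = ⊤ := by
    rw [LinearMap.range_eq_top]
    rintro ⟨_, u, rfl⟩
    obtain ⟨v, h1, h2⟩ := P.exists_opt u
    exact ⟨⟨v, h1⟩, Subtype.ext h2⟩
  obtain ⟨s, hs⟩ := φ.exists_rightInverse_of_surjective hφ
  obtain ⟨S, hS⟩ := s.exists_extend
  refine ⟨O.subtype.comp S, fun f => (S f).2, fun u => ?_⟩
  have h1 := LinearMap.congr_fun hS ⟨P.p u, u, rfl⟩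
  have h2 := congrArg Subtype.val (LinearMap.congr_fun hs ⟨P.p u, u, rfl⟩)
  rw [LinearMap.comp_apply, ← h1] at h2
  exact h2

theorem Pre.opt_inv (P : Pre X R V) (g : G) : ∃ Q : V → V, (∀ v, P.p (Q v) = pull g (P.p v)) ∧
    (∀ θ u v, P.B (pull g θ) (Q u) (Q v) = P.B θ u v) ∧ ∀ v, P.Opt v → P.Opt (Q v) := by
  obtain ⟨Q, h1, h2⟩ := P.inv g
  obtain ⟨Q', h3, h4⟩ := P.inv g⁻¹
  refine ⟨Q, h1, h2, fun v hv => P.opt_of_min fun u hu => ?_⟩
  have e1 : ∀ k : G, pull k (1 : C(Z, ℝ)) = 1 := fun k => rfl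
  have a1 := h2 1 v v
  have a2 := h4 1 u u
  rw [e1] at a1 a2
  rw [a1, ← a2]
  refine hv.le ?_
  rw [h3, hu, h1]
  ext ξ
  simp [pull]

end Vale.Agent.P198
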