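import Vale.Agent.P198.D.AbsA

/-! # P198 D/AbsB

Locality (helper names start with absb_).  `dense`: `range p` is a subalgebra (`mul`; constants from `comp` with `T` constant, `L = 0`) separating points (`cut`), `ContinuousMap.subalgebra_topologicalClosure_eq_top_of_separatesPoints`.
`loc`: let `a = p d`.  For `x` from `cut ξ r` with `ball ξ (2r) ⊆ W` and any `y`, let `z` be the product of `x, y` and `z'` the product of `z, d` (`mul`): `p z' = 0`, so `0 = B 1 w z' = B (p z) w d + B a w z` and `B a w z = B (a * p x) w y + B (a * p y) w x = 0`.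
By `dense`, `cont`: `B (p x * φ) w d = 0` for all `φ`.  Cover `tsupport θ` by finitely many interiors of `{χ_i = 1}`, `σ = Σ χ_i²`, `θ = Σ χ_i * (χ_i θ / max σ 1)`.
`contr`: `d = v - w`, `B θ v v = B θ w w + 2 B θ w d + B θ d d`.
-/

set_option linter.unusedSectionVars false

namespace Vale.Agent.P198
open Set Metric Filter Topology MeasureTheory
variable {G Z : Type} [Group G] [MetricSpace Z] [CompactSpace Z] [MulAction G Z]
  [ContinuousConstSMul G Z]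
  {X : GP G Z} {R : ℕ} {V : Type} [AddCommGroup V] [Module ℝ V]

theorem absb_const (P : Pre X R V) (c : ℝ) : ∃ v, ∀ ξ, P.p v ξ = c := by
  obtain ⟨v, hv, -⟩ := P.comp 0 0 0 (fun _ => c) (fun _ _ => by simp)
  exact ⟨v, hv⟩

/-- The range of `p` as a subalgebra. -/
def absb_alg (P : Pre X R V) : Subalgebra ℝ C(Z, ℝ) where
  carrier := range P.p
  mul_mem' := by
    rintro _ _ ⟨u, rfl⟩ ⟨v, rfl⟩
    obtain ⟨y, hy, -⟩ := P.mul u v
    exact ⟨y, hy⟩
  add_mem' := by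
    rintro _ _ ⟨u, rfl⟩ ⟨v, rfl⟩
    exact ⟨u + v, map_add _ _ _⟩
  algebraMap_mem' c := by
    obtain ⟨v, hv⟩ := absb_const P c
    exact ⟨v, ContinuousMap.ext fun ξ => by simp [hv]⟩

theorem Pre.dense (P : Pre X R V) : Dense (range P.p) := by
  have hs : (absb_alg P).SeparatesPoints := by
    intro ξ ζ hne
    obtain ⟨v, h1, h0, -⟩ := P.cut ξ (dist ζ ξ) (dist_pos.2 hne.symm)
    refine ⟨P.p v, ⟨P.p v, ⟨v, rfl⟩, rfl⟩, ?_⟩
    rw [h1.self_of_nhds, h0 ζ le_rfl]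
    exact one_ne_zero
  have h := ContinuousMap.subalgebra_topologicalClosure_eq_top_of_separatesPoints _ hs
  intro f
  have hf : f ∈ (absb_alg P).topologicalClosure := h ▸ Algebra.mem_top
  exact hf

theorem absb_pt {P : Pre X R V} {w d : V} (hw : P.Opt w) {W : Set Z} (hW : IsOpen W)
    (hd : ∀ ξ ∈ W, P.p d ξ = 0) {ξ : Z} (hξ : ξ ∈ W) :
    ∃ χ : C(Z, ℝ), (∀ᶠ ζ in 𝓝 ξ, χ ζ = 1) ∧ ∀ φ, P.B (χ * φ) w d = 0 := by
  obtain ⟨ε, hε, hb⟩ := Metric.isOpen_iff.1 hW ξ hξ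
  obtain ⟨x, h1, h0, h2⟩ := P.cut ξ (ε / 2) (half_pos hε)
  have hax : P.p d * P.p x = 0 := by
    ext ζ
    by_cases h : dist ζ ξ < ε
    · simp [hd ζ (hb h)]
    · simp [h0 ζ (by linarith [not_lt.1 h])]
  refine ⟨P.p x, h1, fun φ => ?_⟩
  have key : ∀ y, P.B (P.p x * P.p y) w d = 0 := by
    intro y
    obtain ⟨z, hz, ez⟩ := P.mul x y
    obtain ⟨z', hz', ez'⟩ := P.mul z d
    have e0 : P.p z' = 0 := by
      rw [hz', hz, mul_comm (P.p x), mul_assoc, mul_comm (P.p x), hax, mul_zero]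
    have e1 := hw z' e0
    rw [ez', one_mul, one_mul, ez, hax, map_zero, LinearMap.zero_apply, LinearMap.zero_apply,
      h2 (P.p d * P.p y) w fun ζ hζ => by
        simp [hd ζ (hb (by rw [mem_ball]; linarith))], hz] at e1
    simpa using e1
  have hc : Continuous fun φ : C(Z, ℝ) => P.B (P.p x * φ) w d :=
    (P.cont w d).comp (continuous_const.mul continuous_id)
  refine closure_minimal (s := range P.p) (t := {φ | P.B (P.p x * φ) w d = 0}) ?_
    (isClosed_eq hc continuous_const) (P.dense φ)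
  rintro _ ⟨y, rfl⟩
  exact key y

theorem Pre.Opt.loc {P : Pre X R V} {w d : V} (hw : P.Opt w) {W : Set Z} (hW : IsOpen W)
    (hd : ∀ ξ ∈ W, P.p d ξ = 0) {θ : C(Z, ℝ)} (hθ : tsupport θ ⊆ W) : P.B θ w d = 0 := by
  have hK : IsCompact (tsupport θ) := (isClosed_tsupport _).isCompact
  have key : ∃ χ : C(Z, ℝ), (∀ ζ ∈ tsupport θ, χ ζ = 1) ∧ ∀ φ, P.B (χ * φ) w d = 0 := by
    refine hK.induction_on
      (p := fun s => ∃ χ : C(Z, ℝ), (∀ ζ ∈ s, χ ζ = 1) ∧ ∀ φ, P.B (χ * φ) w d = 0)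
      ⟨0, fun _ h => h.elim, fun φ => by simp⟩ ?_ ?_ ?_
    · rintro s t hst ⟨χ, h1, h2⟩
      exact ⟨χ, fun ζ h => h1 ζ (hst h), h2⟩
    · rintro s t ⟨χ, h1, h2⟩ ⟨ψ, h3, h4⟩
      refine ⟨χ + ψ - χ * ψ, ?_, fun φ => ?_⟩
      · rintro ζ (h | h)
        · simp [h1 ζ h]
        · simp [h3 ζ h]
      · rw [sub_mul, add_mul, mul_assoc, map_sub, map_add]
        simp [h2, h4]
    · intro ξ hξ
      obtain ⟨χ, h1, h2⟩ := absb_pt hw hW hd (hθ hξ)
      exact ⟨{ζ | χ ζ = 1}, mem_nhdsWithin_of_mem_nhds h1, χ, fun _ h => h, h2⟩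
  obtain ⟨χ, h1, h2⟩ := key
  have e : θ = χ * θ := by
    ext ζ
    by_cases h : ζ ∈ tsupport θ
    · simp [h1 ζ h]
    · simp [image_eq_zero_of_notMem_tsupport h]
  rw [e]
  exact h2 θ

theorem Pre.Opt.contr {P : Pre X R V} {w v : V} (hw : P.Opt w) {W : Set Z} (hW : IsOpen W)
    (e : ∀ ξ ∈ W, P.p w ξ = P.p v ξ) {θ : C(Z, ℝ)} (h0 : ∀ ξ, 0 ≤ θ ξ) (hθ : tsupport θ ⊆ W) :
    P.B θ w w ≤ P.B θ v v := by
  have h1 : P.B θ w (v - w) = 0 := hw.loc hW (fun ξ hξ => by simp [e ξ hξ]) hθ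
  have h2 := P.pos θ (v - w) h0
  have h3 := P.symm θ w v
  simp only [map_sub, LinearMap.sub_apply] at h1 h2
  linarith

end Vale.Agent.P198
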