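import Vale.Agent.P198.D.AbsB

/-! # P198 D/AbsC

The Dirichlet structure (helper names start with absc_).  `exists_meas`: `RealRMK.rieszMeasure`, `RealRMK.integral_rieszMeasure` (see `exists_regular_eq_of_compactSpace` in that Mathlib file).
`le_meas`: `thickenedIndicator`, `tendsto_integral_thickenedIndicator_of_isClosed`.  `df`: `dom = range p`, `I θ f g = B θ (S f) (S g)` with `S` from `exists_sec`.
-/

set_option linter.unusedSectionVars false

namespace Vale.Agent.P198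
open Set Metric Filter Topology MeasureTheory
variable {G Z : Type} [Group G] [MetricSpace Z] [CompactSpace Z] [MulAction G Z]
  [ContinuousConstSMul G Z]
  {X : GP G Z} {R : ℕ} {V : Type} [AddCommGroup V] [Module ℝ V]

theorem exists_meas [MeasurableSpace Z] [BorelSpace Z] (Λ : C(Z, ℝ) →ₗ[ℝ] ℝ)
    (h0 : ∀ θ : C(Z, ℝ), (∀ ξ, 0 ≤ θ ξ) → 0 ≤ Λ θ) :
    ∃ μ : Measure Z, IsFiniteMeasure μ ∧ ∀ θ : C(Z, ℝ), Λ θ = ∫ ξ, θ ξ ∂μ := by
  let Λ' : CompactlySupportedContinuousMap Z ℝ →ₚ[ℝ] ℝ :=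
    { toFun g := Λ g.toContinuousMap
      map_add' g g' := Λ.map_add g.toContinuousMap g'.toContinuousMap
      map_smul' c g := Λ.map_smul c g.toContinuousMap
      monotone' g g' hgg' := by
        have h := h0 (g'.toContinuousMap - g.toContinuousMap) fun ξ => sub_nonneg.2 (hgg' ξ)
        rw [map_sub] at h
        exact sub_nonneg.1 h }
  refine ⟨RealRMK.rieszMeasure Λ', inferInstance, fun θ => ?_⟩
  exact (RealRMK.integral_rieszMeasure Λ' ⟨θ, HasCompactSupport.of_compactSpace _⟩).symm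

theorem le_meas [MeasurableSpace Z] [BorelSpace Z] (μ : Measure Z) [IsFiniteMeasure μ] {W : Set Z}
    (hW : IsClosed W) {m : ℝ}
    (hm : ∀ θ : C(Z, ℝ), (∀ ξ, 0 ≤ θ ξ) → (∀ ξ ∈ W, 1 ≤ θ ξ) → m ≤ ∫ ξ, θ ξ ∂μ) :
    m ≤ μ.real W := by
  refine ge_of_tendsto' (tendsto_integral_thickenedIndicator_of_isClosed μ hW
    (δs := fun n => (1 : ℝ) / (n + 1)) (fun _ => by positivity)
    tendsto_one_div_add_atTop_nhds_zero_nat) fun n => ?_
  have hn : (0 : ℝ) < 1 / (n + 1) := by positivity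
  exact hm ⟨fun ξ => (thickenedIndicator hn W ξ : ℝ),
    NNReal.continuous_coe.comp (thickenedIndicator hn W).continuous⟩
    (fun ξ => NNReal.coe_nonneg _) fun ξ hξ => by
      rw [ContinuousMap.coe_mk, thickenedIndicator_one hn W hξ, NNReal.coe_one]

theorem Pre.df [MeasurableSpace Z] [BorelSpace Z] (P : Pre X R V) (hR : X.RO R) :
    Nonempty (DF G Z) := by
  obtain ⟨S, hS, hp⟩ := P.exists_sec
  have hp' : ∀ f ∈ LinearMap.range P.p, P.p (S f) = f := by
    rintro _ ⟨u, rfl⟩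
    exact hp u
  choose Γ hΓ hΓ' using fun f : C(Z, ℝ) =>
    exists_meas ((P.B.flip (S f)).flip (S f)) fun θ hθ => P.pos θ (S f) hθ
  have low : ∀ f ∈ LinearMap.range P.p, ∀ (W : Set Z) (m : ℝ), IsClosed W → X.Low R f W m →
      m ≤ (Γ f).real W := by
    intro f hf W m hW h
    have := hΓ f
    refine le_meas (Γ f) hW fun θ h0 h1 => ?_
    rw [← hΓ' f θ]
    refine P.low (S f) W m θ ?_ h0 h1
    rw [hp' f hf]
    exact h
  refine ⟨{ dom := LinearMap.range P.p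
            I := { toFun := fun θ => (P.B θ).compl₁₂ S S
                   map_add' := fun θ θ' => by ext; simp
                   map_smul' := fun c θ => by ext; simp }
            Γ := Γ
            fin := hΓ
            symm := fun θ f g => P.symm θ (S f) (S g)
            repr := fun θ f _ => hΓ' f θ
            comp_mem := ?_
            contr := ?_
            lsc := ?_
            inv_mem := ?_
            inv := ?_
            cut := ?_
            l1 := ?_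
            l2 := ?_ }⟩
  · rintro _ ⟨v₁, rfl⟩ _ ⟨v₂, rfl⟩ L T hT h hh
    obtain ⟨v, hv, -⟩ := P.comp v₁ v₂ L T hT
    exact ⟨v, ContinuousMap.ext fun ξ => (hv ξ).trans (hh ξ).symm⟩
  · intro f₁ h₁ f₂ h₂ h hh L T hT W hW e θ h0 hθ
    obtain ⟨v, hv, hv'⟩ := P.comp (S f₁) (S f₂) L T hT
    refine ((hS h).contr hW (v := v) (fun ξ hξ => ?_) h0 hθ).trans (hv' θ h0)
    rw [hv, hp' h hh, hp' f₁ h₁, hp' f₂ h₂, e ξ hξ]
  · intro f g M hf hlim hM
    obtain ⟨v, hv, hv'⟩ := P.diag g M fun η hη => by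
      obtain ⟨n, hn⟩ := (Metric.tendsto_nhds.1 hlim η hη).exists
      refine ⟨S (f n), by rw [hp' _ (hf n)]; exact hn.le, ?_⟩
      exact le_trans (hM n) (le_add_of_nonneg_right hη.le)
    exact ⟨⟨v, hv⟩, ((hS g).le (u := v) (by rw [hv, hp' g ⟨v, hv⟩])).trans hv'⟩
  · rintro g _ ⟨v, rfl⟩
    obtain ⟨Q, hQ, -⟩ := P.opt_inv g
    exact ⟨Q v, hQ v⟩
  · intro g θ f hf h hh
    obtain ⟨Q, hQ, hQ1, hQ2⟩ := P.opt_inv g
    have key : ∀ f ∈ LinearMap.range P.p, ∀ w,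
        P.B (pull g θ) w (S (pull g f)) = P.B (pull g θ) w (Q (S f)) := by
      intro f hf w
      have e : P.p (Q (S f)) = pull g f := by rw [hQ, hp' f hf]
      exact (hS _).congr (hQ2 _ (hS f)) (by rw [e, hp' _ ⟨_, e⟩]) _ w
    change P.B (pull g θ) (S (pull g f)) (S (pull g h)) = P.B θ (S f) (S h)
    rw [key h hh, P.symm, key f hf, P.symm, hQ1]
  · intro p r hr
    obtain ⟨v, h1, h2, -⟩ := P.cut p r hr
    exact ⟨P.p v, ⟨v, rfl⟩, h1, h2⟩
  · intro M
    obtain ⟨τ, hτ, h⟩ := hR.l1 M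
    exact ⟨τ, hτ, fun f hf K₀ K₁ ε t₀ t₁ hc p₀ h₀ p₁ h₁ hd =>
      low f hf _ _ isClosed_closedBall (h f K₀ K₁ ε t₀ t₁ hc p₀ h₀ p₁ h₁ hd)⟩
  · intro τ hτ
    obtain ⟨c, hc0, h⟩ := hR.l2 τ hτ
    exact ⟨c, hc0, fun f hf K₀ K₁ ε t₀ t₁ hc σ h₀ h₁ h₂ hd =>
      low f hf _ _ isClosed_cthickening (h f K₀ K₁ ε t₀ t₁ hc σ h₀ h₁ h₂ hd)⟩

end Vale.Agent.P198
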