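import Vale.Agent.P198.D.Car

/-! # P198 D/Comp

Contractions and products (helper names start with comp_).
`comp`: `V n x = T (U₁ n x, U₂ n x)`; `Lip2` gives `0 ≤ L`, continuity of `T`, `|T p - T p'| ≤ (L + 1) (|p.1 - p'.1| + |p.2 - p'.2|)`, and pointwise `car V V ≤ L (car U₁ U₁ + car U₂ U₂)`; `Lam_mono`, `Lam_mul`, `Lam_add`.
`mul`: `U(xs) V(xs) - U x V x = U x (V(xs) - V x) + V(xs) (U(xs) - U x)`, so `car (UV) (UV) ≤ 2 C² (car U U + car V V)`.
`Bf_mul`: `θ car H (UV) - θ f car H V - θ f' car H U = θ ((U x - f (π x)) car H V + Σ_s ∇H ∇U (V (xs) - f' (π x)))`; `Lam_congr` with `Y = car H H + car U U + car V V`, `step_cont`, `nu_le`.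
-/

set_option linter.unusedSectionVars false

namespace Vale.Agent.P198
open Set Metric Filter Topology MeasureTheory
variable {G Z : Type} [Group G] [MetricSpace Z] [CompactSpace Z] [MulAction G Z]
  [ContinuousConstSMul G Z]
  {X : GP G Z} {R : ℕ} {f f' h θ : C(Z, ℝ)} {U V H F F' Y : ℕ → G → ℝ}

theorem comp_nonneg {L : ℝ} {T : ℝ × ℝ → ℝ} (hT : Lip2 L T) : 0 ≤ L := by
  simpa using (sq_nonneg _).trans (hT (1, 0) (0, 0))

theorem comp_lip {L : ℝ} {T : ℝ × ℝ → ℝ} (hT : Lip2 L T) (p p' : ℝ × ℝ) :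
    |T p - T p'| ≤ (L + 1) * (|p.1 - p'.1| + |p.2 - p'.2|) := by
  have L0 := comp_nonneg hT
  refine abs_le_of_sq_le_sq ((hT p p').trans ?_) (by positivity)
  rw [mul_pow, ← sq_abs (p.1 - p'.1), ← sq_abs (p.2 - p'.2)]
  exact mul_le_mul (by nlinarith)
    (by nlinarith [mul_nonneg (abs_nonneg (p.1 - p'.1)) (abs_nonneg (p.2 - p'.2))])
    (by positivity) (by positivity)

theorem comp_cont {L : ℝ} {T : ℝ × ℝ → ℝ} (hT : Lip2 L T) : Continuous T := by
  refine (LipschitzWith.of_dist_le' (K := (L + 1) * 2) fun p p' => ?_).continuous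
  rw [mul_assoc, two_mul, Prod.dist_eq]
  exact (comp_lip hT p p').trans (mul_le_mul_of_nonneg_left
    (add_le_add (le_max_left _ _) (le_max_right _ _)) (by linarith [comp_nonneg hT]))

theorem GP.Ad.comp {f₁ f₂ : C(Z, ℝ)} {U₁ U₂ : ℕ → G → ℝ} (h₁ : X.Ad R f₁ U₁) (h₂ : X.Ad R f₂ U₂)
    {L : ℝ} {T : ℝ × ℝ → ℝ} (hT : Lip2 L T) :
    ∃ (f : C(Z, ℝ)) (V : ℕ → G → ℝ), X.Ad R f V ∧ (∀ ξ, f ξ = T (f₁ ξ, f₂ ξ)) ∧
      ∀ θ : C(Z, ℝ), (∀ ξ, 0 ≤ θ ξ) →
        X.Bf R θ V V ≤ L * (X.Bf R θ U₁ U₁ + X.Bf R θ U₂ U₂) := by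
  have L0 := comp_nonneg hT
  have hc : ∀ n x, X.car R (fun x => T (U₁ n x, U₂ n x)) (fun x => T (U₁ n x, U₂ n x)) x ≤
      L * (X.car R (U₁ n) (U₁ n) x + X.car R (U₂ n) (U₂ n) x) := fun n x => by
    unfold GP.car
    rw [← Finset.sum_add_distrib, Finset.mul_sum]
    exact Finset.sum_le_sum fun s _ => by
      simpa only [sq] using hT (U₁ n (x * s), U₂ n (x * s)) (U₁ n x, U₂ n x)
  have hA : X.Ad R ⟨fun ξ => T (f₁ ξ, f₂ ξ), (comp_cont hT).comp (by fun_prop)⟩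
      fun n x => T (U₁ n x, U₂ n x) := by
    refine ⟨?_, (h₁.en.add h₂.en).dom L fun n x => ?_, fun δ hδ => ?_⟩
    · obtain ⟨C₁, hC₁⟩ := h₁.bdd
      obtain ⟨C₂, hC₂⟩ := h₂.bdd
      refine ⟨|T (0, 0)| + (L + 1) * (C₁ + C₂), fun n x => ?_⟩
      have a := comp_lip hT (U₁ n x, U₂ n x) (0, 0)
      have b := abs_sub_abs_le_abs_sub (T (U₁ n x, U₂ n x)) (T (0, 0))
      simp only [sub_zero] at a
      have c := mul_le_mul_of_nonneg_left (add_le_add (hC₁ n x) (hC₂ n x)) (by linarith : 0 ≤ L + 1)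
      linarith
    · rw [abs_of_nonneg (X.car_nonneg R _ x)]
      exact (hc n x).trans (mul_le_mul_of_nonneg_left (le_abs_self _) L0)
    · have hδ' : 0 < δ / (2 * (L + 1)) := by positivity
      obtain ⟨k₁, e₁⟩ := h₁.lm _ hδ'
      obtain ⟨k₂, e₂⟩ := h₂.lm _ hδ'
      refine ⟨max k₁ k₂, ?_⟩
      filter_upwards [e₁, e₂] with n a b x hx
      refine (comp_lip hT _ _).trans ((mul_le_mul_of_nonneg_left
        (add_le_add (a x (le_of_max_le_left hx)) (b x (le_of_max_le_right hx)))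
        (by linarith)).trans (le_of_eq ?_))
      field_simp
      ring
  refine ⟨_, _, hA, fun _ => rfl, fun θ hθ => ?_⟩
  have a := h₁.l1c h₁ θ
  have b := h₂.l1c h₂ θ
  unfold GP.Bf
  rw [← GP.Lam_add a b, ← GP.Lam_mul (a.add b)]
  refine GP.Lam_mono (hA.l1c hA θ) ((a.add b).const_mul L) fun n x => ?_
  exact (mul_le_mul_of_nonneg_left (hc n x) (hθ _)).trans (le_of_eq (by ring))

theorem GP.Ad.mul (hU : X.Ad R f U) (hV : X.Ad R f' V) : X.Ad R (f * f') (U * V) := by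
  obtain ⟨C, hC⟩ := hU.bdd
  obtain ⟨D, hD⟩ := hV.bdd
  have C0 : 0 ≤ C := (abs_nonneg _).trans (hC 0 1)
  refine ⟨⟨C * D, fun n x => ?_⟩, (hU.en.add hV.en).dom (2 * (C ^ 2 + D ^ 2)) fun n x => ?_,
    fun δ hδ => ?_⟩
  · rw [Pi.mul_apply, Pi.mul_apply, abs_mul]
    exact mul_le_mul (hC n x) (hD n x) (abs_nonneg _) C0
  · rw [abs_of_nonneg (X.car_nonneg R _ x)]
    refine le_trans ?_ (mul_le_mul_of_nonneg_left (le_abs_self _) (by positivity))
    unfold GP.car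
    rw [← Finset.sum_add_distrib, Finset.mul_sum]
    refine Finset.sum_le_sum fun s _ => ?_
    have a := sq_le_sq' (abs_le.1 (hC n x)).1 (abs_le.1 (hC n x)).2
    have b := sq_le_sq' (abs_le.1 (hD n (x * s))).1 (abs_le.1 (hD n (x * s))).2
    simp only [Pi.mul_apply]
    have a' := mul_le_mul_of_nonneg_right a (sq_nonneg (V n (x * s) - V n x))
    have b' := mul_le_mul_of_nonneg_right b (sq_nonneg (U n (x * s) - U n x))
    nlinarith [sq_nonneg (U n x * (V n (x * s) - V n x) - V n (x * s) * (U n (x * s) - U n x)),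
      mul_nonneg (sq_nonneg C) (sq_nonneg (U n (x * s) - U n x)),
      mul_nonneg (sq_nonneg D) (sq_nonneg (V n (x * s) - V n x))]
  · have hδ' : 0 < δ / (C + ‖f'‖ + 1) := by positivity
    obtain ⟨k₁, e₁⟩ := hU.lm _ hδ'
    obtain ⟨k₂, e₂⟩ := hV.lm _ hδ'
    refine ⟨max k₁ k₂, ?_⟩
    filter_upwards [e₁, e₂] with n a b x hx
    have a' := mul_le_mul (f'.norm_coe_le_norm (X.π x)) (a x (le_of_max_le_left hx))
      (abs_nonneg _) (norm_nonneg _)
    have b' := mul_le_mul (hC n x) (b x (le_of_max_le_right hx)) (abs_nonneg _) C0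
    have c := mul_div_cancel₀ δ (by positivity : C + ‖f'‖ + 1 ≠ 0)
    rw [Real.norm_eq_abs, ← abs_mul] at a'
    rw [← abs_mul] at b'
    rw [show (U * V) n x - (f * f') (X.π x) =
      U n x * (V n x - f' (X.π x)) + f' (X.π x) * (U n x - f (X.π x)) by
        simp only [Pi.mul_apply, ContinuousMap.mul_apply]; ring]
    exact (abs_add_le _ _).trans (by linarith)

theorem GP.Bf_mul (hU : X.Ad R f U) (hV : X.Ad R f' V) (hH : X.Ad R h H) (θ : C(Z, ℝ)) :
    X.Bf R θ H (U * V) = X.Bf R (θ * f) H V + X.Bf R (θ * f') H U := by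
  have a := hH.l1c hV (θ * f)
  have b := hH.l1c hU (θ * f')
  unfold GP.Bf
  rw [← GP.Lam_add a b]
  refine GP.Lam_congr (hH.l1c (hU.mul hV) θ) (a.add b) ((hH.en.add hU.en).add hV.en)
    fun δ hδ => ?_
  have hδ' : 0 < δ / (3 * (‖θ‖ + 1)) := by positivity
  have c := mul_div_cancel₀ δ (by positivity : 3 * (‖θ‖ + 1) ≠ 0)
  generalize δ / (3 * (‖θ‖ + 1)) = η at hδ' c
  obtain ⟨k₁, e₁⟩ := hU.lm _ hδ'
  obtain ⟨k₂, e₂⟩ := hV.lm _ hδ'
  obtain ⟨k₃, e₃⟩ := X.step_cont R f' hδ'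
  refine ⟨k₁ + k₂ + k₃ + R, ?_⟩
  filter_upwards [e₁, e₂] with n a b x hx
  have e : θ (X.π x) * X.car R (H n) ((U * V) n) x -
      ((θ * f) (X.π x) * X.car R (H n) (V n) x + (θ * f') (X.π x) * X.car R (H n) (U n) x) =
      θ (X.π x) * ((U n x - f (X.π x)) * X.car R (H n) (V n) x + ∑ s ∈ X.B R,
        (V n (x * s) - f' (X.π x)) * ((H n (x * s) - H n x) * (U n (x * s) - U n x))) := by
    simp only [GP.car, Finset.mul_sum, ← Finset.sum_add_distrib, ← Finset.sum_sub_distrib,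
      Pi.mul_apply, ContinuousMap.mul_apply]
    exact Finset.sum_congr rfl fun s _ => by ring
  have nH := X.car_nonneg R (H n) x
  have nU := X.car_nonneg R (U n) x
  have nV := X.car_nonneg R (V n) x
  have t1 := mul_le_mul (a x (by omega)) (X.abs_car_le R (H n) (V n) x) (abs_nonneg _) hδ'.le
  have t2 : |∑ s ∈ X.B R,
      (V n (x * s) - f' (X.π x)) * ((H n (x * s) - H n x) * (U n (x * s) - U n x))| ≤
      2 * η * (X.car R (H n) (H n) x + X.car R (U n) (U n) x) := by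
    unfold GP.car
    rw [← Finset.sum_add_distrib, Finset.mul_sum]
    refine (Finset.abs_sum_le_sum_abs _ _).trans (Finset.sum_le_sum fun s hs => ?_)
    have u1 := b (x * s) (by have := X.nu_le hs x; omega)
    have u2 := e₃ x (by omega) s hs
    have u3 := abs_sub_le (V n (x * s)) (f' (X.π (x * s))) (f' (X.π x))
    rw [abs_mul]
    refine mul_le_mul (by linarith) (abs_le.2 ⟨?_, ?_⟩) (abs_nonneg _) (by positivity)
    · nlinarith [sq_nonneg (H n (x * s) - H n x + (U n (x * s) - U n x)),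
        sq_nonneg (H n (x * s) - H n x), sq_nonneg (U n (x * s) - U n x)]
    · nlinarith [sq_nonneg (H n (x * s) - H n x - (U n (x * s) - U n x)),
        sq_nonneg (H n (x * s) - H n x), sq_nonneg (U n (x * s) - U n x)]
  rw [← abs_mul] at t1
  rw [e, abs_mul, abs_of_nonneg (add_nonneg (add_nonneg nH nU) nV), ← c]
  refine (mul_le_mul ((θ.norm_coe_le_norm (X.π x)).trans (le_add_of_nonneg_right zero_le_one))
    ((abs_add_le _ _).trans (add_le_add t1 t2)) (abs_nonneg _) (by positivity)).trans ?_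
  have := mul_nonneg (by positivity : 0 ≤ (‖θ‖ + 1) * η) (add_nonneg nU (add_nonneg nV nV))
  linarith

end Vale.Agent.P198
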