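import Vale.Agent.P198.D.Car

/-! # P198 D/Inv

Invariance (helper names start with inv_).  With `ρ = 1 - 1/(n+2) ≥ 1/2` and `j = ν g`: `ρ^j dwt n (ν y) ≤ dwt n (ν (g⁻¹ y))` and `ρ^j dwt n (ν (g⁻¹ y)) ≤ dwt n (ν y)` (`wt_add`, `wn.mul`, `wn.inv`).
`L1.shift`: reindex the finite sum by `x ↦ g * x`.  `Lam_shift`: `F' n y = dwt n (ν (g⁻¹ y)) / dwt n (ν y) * F n y` has `Sm n (F' n) = Sm n (F n ∘ g)` (`Equiv.tsum_eq (Equiv.mulLeft g)`), and `Lam_congr` with `Y = F`, `uf_rho`.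
`car (U∘g) (V∘g) x = car U V (g x)` (`mul_assoc`).  `Lm.inv`: `GP.asym`, uniform continuity, `ν x ≤ ν (g x) + ν g`.
`Bf_inv`: `Lam_shift` for `θ (π y) car U V y`, then `Bf_eq` with `a n x = θ (π (g x))`.
-/

set_option linter.unusedSectionVars false

namespace Vale.Agent.P198
open Set Metric Filter Topology MeasureTheory
variable {G Z : Type} [Group G] [MetricSpace Z] [CompactSpace Z] [MulAction G Z]
  [ContinuousConstSMul G Z]
  {X : GP G Z} {R : ℕ} {f f' h θ : C(Z, ℝ)} {U V H F F' Y : ℕ → G → ℝ}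

theorem inv_rho (n : ℕ) : 1 / 2 ≤ 1 - 1 / ((n : ℝ) + 2) ∧ 1 - 1 / ((n : ℝ) + 2) ≤ 1 := by
  have h0 : (0 : ℝ) ≤ n := Nat.cast_nonneg n
  have h1 : 1 / ((n : ℝ) + 2) ≤ 1 / 2 := one_div_le_one_div_of_le two_pos (by linarith)
  have h2 : 0 < 1 / ((n : ℝ) + 2) := by positivity
  constructor <;> linarith

theorem inv_wt (n : ℕ) {a b j : ℕ} (h : a ≤ b + j) :
    (1 - 1 / ((n : ℝ) + 2)) ^ j * dwt n b ≤ dwt n a := by
  obtain ⟨c, hc⟩ := Nat.exists_eq_add_of_le h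
  obtain ⟨h1, h2⟩ := inv_rho n
  rw [mul_comm, ← wt_add, hc, wt_add]
  exact mul_le_of_le_one_right (wt_pos n a).le (pow_le_one₀ (by linarith) h2)

theorem inv_wt2 (n : ℕ) {a b j : ℕ} (h : a ≤ b + j) : dwt n b ≤ 2 ^ j * dwt n a := by
  have h1 := inv_wt n h
  have h2 : (1 : ℝ) ≤ 2 ^ j * (1 - 1 / ((n : ℝ) + 2)) ^ j := by
    rw [← mul_pow]
    exact one_le_pow₀ (by linarith [(inv_rho n).1])
  have h3 := wt_pos n b
  have h4 : (0 : ℝ) < 2 ^ j := by positivity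
  calc dwt n b ≤ 2 ^ j * (1 - 1 / ((n : ℝ) + 2)) ^ j * dwt n b := le_mul_of_one_le_left h3.le h2
    _ = 2 ^ j * ((1 - 1 / ((n : ℝ) + 2)) ^ j * dwt n b) := by ring
    _ ≤ _ := mul_le_mul_of_nonneg_left h1 h4.le

theorem GP.inv_nu (X : GP G Z) (g x : G) : X.ν (g * x) ≤ X.ν x + X.ν g := by
  have := X.wn.mul g x
  omega

theorem GP.inv_nu' (X : GP G Z) (g x : G) : X.ν x ≤ X.ν (g * x) + X.ν g := by
  have := X.inv_nu g⁻¹ (g * x)
  rwa [inv_mul_cancel_left, X.wn.inv] at this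

theorem GP.inv_car (X : GP G Z) (R : ℕ) (u v : G → ℝ) (g x : G) :
    X.car R (fun y => u (g * y)) (fun y => v (g * y)) x = X.car R u v (g * x) := by
  simp only [GP.car, mul_assoc]

theorem GP.inv_cont (X : GP G Z) (θ : C(Z, ℝ)) (g : G) {δ : ℝ} (hδ : 0 < δ) :
    ∃ k₀ : ℕ, ∀ x, k₀ ≤ X.ν x → |θ (X.π (g * x)) - θ (g • X.π x)| ≤ δ := by
  obtain ⟨η, hη, hu⟩ := Metric.uniformContinuous_iff.1
    (CompactSpace.uniformContinuous_of_continuous θ.continuous) δ hδ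
  obtain ⟨k₀, hk⟩ := X.asym g (half_pos hη)
  refine ⟨k₀, fun x hx => ?_⟩
  have := hu ((hk x hx).trans_lt (half_lt_self hη))
  rw [Real.dist_eq] at this
  exact this.le

theorem GP.L1.shift (hF : X.L1 F) (g : G) : X.L1 fun n x => F n (g * x) := by
  classical
  obtain ⟨C, hC⟩ := hF.bdd
  obtain ⟨M, hM⟩ := hF.sum
  refine ⟨⟨C, fun n x => hC n _⟩, ⟨2 ^ X.ν g * M, fun n s => ?_⟩⟩
  have h1 := hM n (s.map (Equiv.mulLeft g).toEmbedding)
  rw [Finset.sum_map] at h1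
  refine le_trans ?_ (mul_le_mul_of_nonneg_left h1 (by positivity))
  rw [Finset.mul_sum]
  refine Finset.sum_le_sum fun x _ => ?_
  rw [← mul_assoc]
  exact mul_le_mul_of_nonneg_right (inv_wt2 n (X.inv_nu g x)) (abs_nonneg _)

theorem GP.Lam_shift (hF : X.L1 F) (g : G) : (X.Lam fun n x => F n (g * x)) = X.Lam F := by
  have hg : X.ν g⁻¹ = X.ν g := X.wn.inv g
  have e : (X.Lam fun n x => F n (g * x)) =
      X.Lam fun n y => dwt n (X.ν (g⁻¹ * y)) / dwt n (X.ν y) * F n y := by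
    unfold GP.Lam GP.Sm
    refine congrArg _ (funext fun n => ?_)
    refine Eq.trans (tsum_congr fun x => ?_) ((Equiv.mulLeft g).tsum_eq _)
    have := (wt_pos n (X.ν (g * x))).ne'
    simp only [Equiv.coe_mulLeft, inv_mul_cancel_left]
    field_simp
  rw [e]
  refine GP.Lam_congr (hF.dom (2 ^ X.ν g) fun n y => ?_) hF hF fun δ hδ => ⟨0, ?_⟩
  · have h1 := wt_pos n (X.ν y)
    have h2 := wt_pos n (X.ν (g⁻¹ * y))
    rw [abs_mul, abs_of_pos (div_pos h2 h1)]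
    refine mul_le_mul_of_nonneg_right ?_ (abs_nonneg _)
    rw [div_le_iff₀ h1, ← hg]
    exact inv_wt2 n (X.inv_nu' g⁻¹ y)
  · have hlt : 1 / (1 + δ) < 1 := by rw [div_lt_one (by linarith)]; linarith
    filter_upwards [(uf_rho (X.ν g)).eventually (lt_mem_nhds hlt)] with n hn y _
    have h1 := wt_pos n (X.ν y)
    have h2 := wt_pos n (X.ν (g⁻¹ * y))
    have a := inv_wt n (X.inv_nu' g⁻¹ y)
    have b := inv_wt n (X.inv_nu g⁻¹ y)
    rw [hg] at a b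
    rw [div_lt_iff₀ (by linarith)] at hn
    set t := (1 - 1 / ((n : ℝ) + 2)) ^ X.ν g
    have ht : 0 < t := by nlinarith
    rw [← sub_one_mul, abs_mul]
    refine mul_le_mul_of_nonneg_right (abs_le.2 ⟨?_, ?_⟩) (abs_nonneg _)
    · rw [le_sub_iff_add_le, le_div_iff₀ h1]
      have : -δ + 1 ≤ t := by nlinarith
      nlinarith
    · rw [sub_le_iff_le_add, div_le_iff₀ h1]
      have := mul_le_mul_of_nonneg_left a (by linarith : 0 ≤ 1 + δ)
      nlinarith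

theorem GP.Lm.inv (hU : X.Lm f U) (g : G) : X.Lm (pull g f) fun n x => U n (g * x) := by
  intro δ hδ
  obtain ⟨k₀, hk⟩ := hU (δ / 2) (half_pos hδ)
  obtain ⟨k₁, hk₁⟩ := X.inv_cont f g (half_pos hδ)
  refine ⟨k₀ + X.ν g + k₁, ?_⟩
  filter_upwards [hk] with n hn x hx
  have h1 : k₀ ≤ X.ν (g * x) := by
    have := X.inv_nu' g x
    omega
  have a := hn _ h1
  have b := hk₁ x (by omega)
  show |U n (g * x) - f (g • X.π x)| ≤ δ
  have := abs_sub_le (U n (g * x)) (f (X.π (g * x))) (f (g • X.π x))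
  linarith

theorem GP.Ad.inv (hU : X.Ad R f U) (g : G) : X.Ad R (pull g f) fun n x => U n (g * x) := by
  obtain ⟨C, hC⟩ := hU.bdd
  refine ⟨⟨C, fun n x => hC n _⟩, ?_, hU.lm.inv g⟩
  have := hU.en.shift g
  simpa only [← X.inv_car] using this

theorem GP.Bf_inv (hU : X.Ad R f U) (hV : X.Ad R f' V) (g : G) (θ : C(Z, ℝ)) :
    X.Bf R (pull g θ) (fun n x => U n (g * x)) (fun n x => V n (g * x)) = X.Bf R θ U V := by
  have h1 := GP.Lam_shift (hU.l1c hV θ) g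
  have hl : X.Lm (pull g θ) fun _ x => θ (X.π (g * x)) := fun δ hδ => by
    obtain ⟨k₀, hk⟩ := X.inv_cont θ g hδ
    exact ⟨k₀, Eventually.of_forall fun _ x hx => hk x hx⟩
  have h2 := GP.Bf_eq (hU.inv g) (hV.inv g) (a := fun _ x => θ (X.π (g * x))) (C := ‖θ‖)
    (fun _ _ => θ.norm_coe_le_norm _) hl
  rw [← h2]
  simp only [X.inv_car]
  exact h1

end Vale.Agent.P198
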