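import Vale.Agent.P198.D.Car

/-! # P198 D/Lev

Level sums: cutoffs and lower bounds (helper names start with lev_).
`sum_lev`: `Finset.sum_fiberwise_of_maps_to` with the map `ν`, `S k = (B N).filter (ν = k)`.  Note `lev k R W u = Σ_{x ∈ S k, π x ∈ W} car u u x` (`sq`).
`cut_ad`: `χ` from `RO.cut`, `U n x = χ (π x)`; `L1.sum`: `s ⊆ B N`, `sum_lev`, `Σ_k dwt n k * M ≤ |M|` (`wt_hasSum`, `sum_le_hasSum`).  Locality: with `step_small r` the product
`a (π x) * car (H n) (χ ∘ π) x` vanishes for `k₀ ≤ ν x` (if `dist (π x) ξ < 2r` then `a = 0`, else all `χ` values vanish); `Lam_small` with `Y = 0` (`l1_zero`).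
`low`: for `η` get `δ, k₀` from `Low`, `k₁` from `lm`, `K = max`; for most `n` and all `N`: `Σ_{K ≤ k ≤ N} dwt n k * (m - η) ≤ Σ_{x ∈ B N} … ≤ Sm` (`sum_le_Sm`); `Σ_{k ≥ K} dwt n k = (1 - 1/(n+2))^K` (`wt_add`, `wt_hasSum`), `uf_rho`, `L1.tendsto`.
-/

set_option linter.unusedSectionVars false

namespace Vale.Agent.P198
open Set Metric Filter Topology MeasureTheory
variable {G Z : Type} [Group G] [MetricSpace Z] [CompactSpace Z] [MulAction G Z]
  [ContinuousConstSMul G Z]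
  {X : GP G Z} {R : ℕ} {f f' h θ : C(Z, ℝ)} {U V H F F' Y : ℕ → G → ℝ}

theorem GP.sum_lev (X : GP G Z) (n N : ℕ) (a : G → ℝ) :
    ∑ x ∈ X.B N, dwt n (X.ν x) * a x = ∑ k ∈ Finset.range (N + 1), dwt n k * ∑ x ∈ X.S k, a x := by
  rw [← Finset.sum_fiberwise_of_maps_to (s := X.B N) (t := Finset.range (N + 1)) (g := X.ν)
    fun x hx => Finset.mem_range.2 (Nat.lt_succ_of_le (X.mem_B.1 hx))]
  refine Finset.sum_congr rfl fun k hk => ?_
  have e : (X.B N).filter (fun x => X.ν x = k) = X.S k := by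
    ext x
    have := Finset.mem_range.1 hk
    simp only [Finset.mem_filter, X.mem_B, X.mem_S]
    omega
  rw [e, Finset.mul_sum]
  exact Finset.sum_congr rfl fun x hx => by rw [X.mem_S.1 hx]

theorem lev_le (X : GP G Z) (k R : ℕ) (W : Set Z) (u : G → ℝ) (h0 : ∀ ξ, 0 ≤ θ ξ)
    (h1 : ∀ ξ ∈ W, 1 ≤ θ ξ) : X.lev k R W u ≤ ∑ x ∈ X.S k, θ (X.π x) * X.car R u u x := by
  classical
  simp only [GP.lev, sq]
  refine (Finset.sum_le_sum fun x hx => ?_).trans (Finset.sum_le_sum_of_subset_of_nonneg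
    (Finset.filter_subset _ _) fun x _ _ => mul_nonneg (h0 _) (X.car_nonneg R u x))
  exact le_mul_of_one_le_left (X.car_nonneg R u x) (h1 _ (Finset.mem_filter.1 hx).2)

theorem lev_univ (X : GP G Z) (k R : ℕ) (u : G → ℝ) :
    X.lev k R univ u = ∑ x ∈ X.S k, X.car R u u x := by
  simp [GP.lev, GP.car, sq]

theorem GP.RO.cut_ad (hR : X.RO R) (ξ : Z) {r : ℝ} (hr : 0 < r) :
    ∃ (χ : C(Z, ℝ)) (U : ℕ → G → ℝ), X.Ad R χ U ∧ (∀ᶠ ζ in 𝓝 ξ, χ ζ = 1) ∧
      (∀ ζ, r ≤ dist ζ ξ → χ ζ = 0) ∧ ∀ (a h : C(Z, ℝ)) (H : ℕ → G → ℝ), X.Ad R h H →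
        (∀ ζ, dist ζ ξ < 2 * r → a ζ = 0) → X.Bf R a H U = 0 := by
  obtain ⟨χ, h1, h0, M, hM⟩ := hR.cut ξ r hr
  have hb : ∀ x, |χ (X.π x)| ≤ ‖χ‖ := fun x => χ.norm_coe_le_norm _
  have hU : X.Ad R χ fun _ x => χ (X.π x) := by
    refine ⟨⟨_, fun _ => hb⟩, ⟨⟨(X.B R).card * (2 * ‖χ‖) ^ 2, fun n x => ?_⟩, |M|, fun n s => ?_⟩,
      fun δ hδ => ⟨0, Eventually.of_forall fun n x _ => by simpa using hδ.le⟩⟩
    · rw [abs_of_nonneg (X.car_nonneg R _ x)]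
      exact X.car_le R hb x
    · have hs : s ⊆ X.B (s.sup X.ν) := fun x hx => X.mem_B.2 (Finset.le_sup hx)
      refine (Finset.sum_le_sum_of_subset_of_nonneg hs fun x _ _ =>
        mul_nonneg (wt_pos _ _).le (abs_nonneg _)).trans ?_
      rw [X.sum_lev]
      refine (Finset.sum_le_sum (g := fun k => dwt n k * |M|) fun k _ =>
        mul_le_mul_of_nonneg_left ?_ (wt_pos _ _).le).trans ?_
      · simp only [abs_of_nonneg (X.car_nonneg R _ _)]
        rw [← lev_univ]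
        exact (hM k).trans (le_abs_self M)
      · exact (sum_le_hasSum _ (fun k _ => mul_nonneg (wt_pos _ _).le (abs_nonneg _))
          ((wt_hasSum n).mul_right |M|)).trans_eq (one_mul _)
  refine ⟨χ, _, hU, h1, h0, fun a h H hH ha => GP.Lam_small (hH.l1c hU a) X.l1_zero fun δ _ => ?_⟩
  obtain ⟨k₀, hk⟩ := X.step_small R hr
  refine ⟨k₀, Eventually.of_forall fun n x hx => ?_⟩
  rw [abs_zero, mul_zero, abs_nonpos_iff]
  by_cases hd : dist (X.π x) ξ < 2 * r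
  · rw [ha _ hd, zero_mul]
  · refine mul_eq_zero_of_right _ (Finset.sum_eq_zero fun s hs => mul_eq_zero_of_right _ ?_)
    have h2 := dist_triangle (X.π x) (X.π (x * s)) ξ
    rw [dist_comm (X.π x) (X.π (x * s))] at h2
    beta_reduce
    rw [h0 (X.π x) (by linarith), h0 (X.π (x * s)) (by linarith [hk x hx s hs]), sub_self]

theorem GP.Ad.low (hU : X.Ad R f U) {W : Set Z} {m : ℝ} (hl : X.Low R f W m)
    (h0 : ∀ ξ, 0 ≤ θ ξ) (h1 : ∀ ξ ∈ W, 1 ≤ θ ξ) : m ≤ X.Bf R θ U U := by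
  have hF := hU.l1c hU θ
  have p : ∀ n x, 0 ≤ θ (X.π x) * X.car R (U n) (U n) x := fun n x =>
    mul_nonneg (h0 _) (X.car_nonneg R _ x)
  refine le_of_forall_pos_le_add fun η hη => sub_le_iff_le_add.1 ?_
  obtain ⟨δ, hδ, k₀, hk₀⟩ := hl η hη
  obtain ⟨k₁, hk₁⟩ := hU.lm δ hδ
  obtain ⟨K, a0, a1⟩ : ∃ K, k₀ ≤ K ∧ k₁ ≤ K := ⟨max k₀ k₁, le_max_left _ _, le_max_right _ _⟩
  have t := (uf_rho K).mul_const (m - η)
  rw [one_mul] at t
  refine le_of_tendsto_of_tendsto t hF.tendsto (hk₁.mono fun n hn => ?_)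
  have hs : HasSum (fun j => dwt n (K + j) * (m - η)) ((1 - 1 / ((n : ℝ) + 2)) ^ K * (m - η)) := by
    have e := ((wt_hasSum n).mul_right ((1 - 1 / ((n : ℝ) + 2)) ^ K)).mul_right (m - η)
    simpa only [one_mul, ← wt_add, add_comm K] using e
  refine le_of_tendsto' hs.tendsto_sum_nat fun N => ?_
  have q : ∀ k, 0 ≤ dwt n k * ∑ x ∈ X.S k, θ (X.π x) * X.car R (U n) (U n) x := fun k =>
    mul_nonneg (wt_pos _ _).le (Finset.sum_nonneg fun x _ => p n x)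
  refine le_trans ?_ (GP.sum_le_Sm hF p n (X.B (K + N)))
  rw [X.sum_lev, Finset.sum_range_succ, Finset.sum_range_add]
  refine le_add_of_le_of_nonneg (le_add_of_nonneg_of_le (Finset.sum_nonneg fun k _ => q k)
    (Finset.sum_le_sum fun j _ => mul_le_mul_of_nonneg_left ?_ (wt_pos _ _).le)) (q _)
  exact (hk₀ (K + j) (by omega) (U n) fun x hx => hn x (by omega)).trans (lev_le X _ R W _ h0 h1)

end Vale.Agent.P198
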