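import Vale.Agent.P198.D.Diag
import Vale.Agent.P198.D.Comp
import Vale.Agent.P198.D.Lev
import Vale.Agent.P198.D.Inv

/-! # P198 D/Build

Bundling (helper names start with bld_).  `V` is the submodule of admissible pairs, `p` the first projection, `B` from `Bf` (`LinearMap.mk₂`).
-/

set_option linter.unusedSectionVars false

namespace Vale.Agent.P198
open Set Metric Filter Topology MeasureTheory
variable {G Z : Type} [Group G] [MetricSpace Z] [CompactSpace Z] [MulAction G Z]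
  [ContinuousConstSMul G Z]
  {X : GP G Z} {R : ℕ} {f f' h θ : C(Z, ℝ)} {U V H F F' Y : ℕ → G → ℝ}

/-- The admissible pairs. -/
def GP.adm (X : GP G Z) (R : ℕ) : Submodule ℝ (C(Z, ℝ) × (ℕ → G → ℝ)) where
  carrier := {v | X.Ad R v.1 v.2}
  zero_mem' := X.ad_zero R
  add_mem' := fun hu hv => GP.Ad.add hu hv
  smul_mem' := fun c _ hv => GP.Ad.smul hv c

/-- The form for a fixed multiplier. -/
noncomputable def bld_B (X : GP G Z) (R : ℕ) (θ : C(Z, ℝ)) : X.adm R →ₗ[ℝ] X.adm R →ₗ[ℝ] ℝ :=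
  LinearMap.mk₂ ℝ (fun u v => X.Bf R θ u.1.2 v.1.2)
    (fun u v w => GP.Bf_add_left u.2 v.2 w.2 θ)
    (fun c u w => GP.Bf_smul_left u.2 w.2 c θ)
    (fun u v w => by
      rw [X.Bf_comm, X.Bf_comm R θ u.1.2, X.Bf_comm R θ u.1.2]
      exact GP.Bf_add_left v.2 w.2 u.2 θ)
    (fun c u w => by
      rw [X.Bf_comm, X.Bf_comm R θ u.1.2]
      exact GP.Bf_smul_left w.2 u.2 c θ)

/-- The trilinear form. -/
noncomputable def bld_T (X : GP G Z) (R : ℕ) :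
    C(Z, ℝ) →ₗ[ℝ] X.adm R →ₗ[ℝ] X.adm R →ₗ[ℝ] ℝ where
  toFun := bld_B X R
  map_add' θ θ' := LinearMap.ext₂ fun u v => GP.Bf_add u.2 v.2 θ θ'
  map_smul' c θ := LinearMap.ext₂ fun u v => GP.Bf_smul u.2 v.2 c θ


theorem GP.RO.pre (hR : X.RO R) : Nonempty (Pre X R (X.adm R)) := by
  refine ⟨{
    p := (LinearMap.fst ℝ _ _).comp (X.adm R).subtype
    B := bld_T X R
    symm := fun θ u v => X.Bf_comm R θ _ _
    pos := fun θ v h0 => GP.Bf_nonneg v.2 h0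
    diag := fun f M hM => ?_
    comp := fun v₁ v₂ L T hT => ?_
    mul := fun u v => ⟨⟨(u.1.1 * v.1.1, u.1.2 * v.1.2), GP.Ad.mul u.2 v.2⟩, rfl,
      fun θ w => GP.Bf_mul u.2 v.2 w.2 θ⟩
    cut := fun ξ r hr => ?_
    inv := fun g => ⟨fun v => ⟨(pull g v.1.1, fun n x => v.1.2 n (g * x)), GP.Ad.inv v.2 g⟩,
      fun v => rfl, fun θ u v => GP.Bf_inv u.2 v.2 g θ⟩
    low := fun v W m θ hl h0 h1 => GP.Ad.low v.2 hl h0 h1 }⟩
  · obtain ⟨U, h1, h2⟩ := X.diag R f M fun η hη => by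
      obtain ⟨v, h1, h2⟩ := hM η hη
      exact ⟨v.1.1, v.1.2, v.2, h1, h2⟩
    exact ⟨⟨(f, U), h1⟩, rfl, h2⟩
  · obtain ⟨f, V, h1, h2, h3⟩ := GP.Ad.comp v₁.2 v₂.2 hT
    exact ⟨⟨(f, V), h1⟩, h2, h3⟩
  · obtain ⟨χ, U, h1, h2, h3, h4⟩ := hR.cut_ad ξ hr
    exact ⟨⟨(χ, U), h1⟩, h2, h3, fun a w ha => h4 a _ _ w.2 ha⟩

end Vale.Agent.P198
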