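import Vale.Agent.P198.D.Lam

/-! # P198 D/Car

Algebra of `car`, `Ad`, `Bf` (helper names start with car_).  Everything is pointwise algebra plus D/Lam (`L1.dom`, `L1.add`, `Lam_add`,
`Lam_mul`, `Lam_nonneg`, `Lam_congr`).  `Ad.l1`: dominate by `car U U + car V V` (`abs_car_le`).  `Ad.add`: `car (U+V) (U+V) ≤ 2 car U U + 2 car V V`.
`Bf_eq`: `Lam_congr` with `Y = car U U + car V V`.  `step_cont`: `GP.step`, uniform continuity of `θ`, `q ^ k → 0`.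
-/

set_option linter.unusedSectionVars false

namespace Vale.Agent.P198
open Set Metric Filter Topology MeasureTheory
variable {G Z : Type} [Group G] [MetricSpace Z] [CompactSpace Z] [MulAction G Z]
  [ContinuousConstSMul G Z]
  {X : GP G Z} {R : ℕ} {f f' h θ : C(Z, ℝ)} {U V H F F' Y : ℕ → G → ℝ}

theorem GP.car_comm (X : GP G Z) (R : ℕ) (u v : G → ℝ) (x : G) :
    X.car R u v x = X.car R v u x :=
  Finset.sum_congr rfl fun _ _ => mul_comm _ _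
theorem GP.car_nonneg (X : GP G Z) (R : ℕ) (u : G → ℝ) (x : G) : 0 ≤ X.car R u u x :=
  Finset.sum_nonneg fun _ _ => mul_self_nonneg _
theorem GP.car_add (X : GP G Z) (R : ℕ) (u v w : G → ℝ) (x : G) :
    X.car R (u + v) w x = X.car R u w x + X.car R v w x := by
  simp only [GP.car, ← Finset.sum_add_distrib, Pi.add_apply]
  exact Finset.sum_congr rfl fun _ _ => by ring
theorem GP.car_smul (X : GP G Z) (R : ℕ) (c : ℝ) (u w : G → ℝ) (x : G) :
    X.car R (c • u) w x = c * X.car R u w x := by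
  simp only [GP.car, Finset.mul_sum, Pi.smul_apply, smul_eq_mul]
  exact Finset.sum_congr rfl fun _ _ => by ring
theorem GP.abs_car_le (X : GP G Z) (R : ℕ) (u v : G → ℝ) (x : G) :
    |X.car R u v x| ≤ X.car R u u x + X.car R v v x := by
  simp only [GP.car, ← Finset.sum_add_distrib]
  refine (Finset.abs_sum_le_sum_abs _ _).trans (Finset.sum_le_sum fun s _ => abs_le.2 ⟨?_, ?_⟩)
  · nlinarith [sq_nonneg ((u (x * s) - u x) + (v (x * s) - v x)), sq_nonneg (u (x * s) - u x),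
      sq_nonneg (v (x * s) - v x)]
  · nlinarith [sq_nonneg ((u (x * s) - u x) - (v (x * s) - v x)), sq_nonneg (u (x * s) - u x),
      sq_nonneg (v (x * s) - v x)]
theorem GP.car_le (X : GP G Z) (R : ℕ) {u : G → ℝ} {C : ℝ} (hu : ∀ x, |u x| ≤ C) (x : G) :
    X.car R u u x ≤ (X.B R).card * (2 * C) ^ 2 := by
  rw [← nsmul_eq_mul]
  refine Finset.sum_le_card_nsmul _ _ _ fun s _ => ?_
  have h1 := abs_le.1 (hu (x * s))
  have h2 := abs_le.1 (hu x)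
  rw [← sq]
  exact sq_le_sq' (by linarith) (by linarith)
theorem car_abs (X : GP G Z) (R : ℕ) (u v : G → ℝ) (x : G) :
    |X.car R u v x| ≤ |X.car R u u x + X.car R v v x| :=
  (X.abs_car_le R u v x).trans (le_abs_self _)

theorem car_th (θ : C(Z, ℝ)) (ξ : Z) : |θ ξ| ≤ ‖θ‖ := θ.norm_coe_le_norm ξ

theorem car_two (X : GP G Z) (R : ℕ) (u v : G → ℝ) (x : G) :
    X.car R (u + v) (u + v) x ≤ 2 * (X.car R u u x + X.car R v v x) := by
  simp only [GP.car, ← Finset.sum_add_distrib, Finset.mul_sum, Pi.add_apply]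
  refine Finset.sum_le_sum fun s _ => ?_
  nlinarith [sq_nonneg ((u (x * s) - u x) - (v (x * s) - v x))]

theorem car_sq (X : GP G Z) (R : ℕ) (c : ℝ) (u : G → ℝ) (x : G) :
    X.car R (c • u) (c • u) x = c ^ 2 * X.car R u u x := by
  rw [X.car_smul, X.car_comm, X.car_smul]
  ring

theorem GP.Ad.l1 (hU : X.Ad R f U) (hV : X.Ad R f' V) {a : ℕ → G → ℝ} {C : ℝ}
    (ha : ∀ n x, |a n x| ≤ C) : X.L1 fun n x => a n x * X.car R (U n) (V n) x := by
  refine (hU.en.add hV.en).dom C fun n x => ?_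
  rw [abs_mul]
  exact mul_le_mul (ha n x) (car_abs X R _ _ x) (abs_nonneg _) ((abs_nonneg _).trans (ha n x))
theorem GP.Ad.l1c (hU : X.Ad R f U) (hV : X.Ad R f' V) (θ : C(Z, ℝ)) :
    X.L1 fun n x => θ (X.π x) * X.car R (U n) (V n) x :=
  hU.l1 hV (a := fun _ x => θ (X.π x)) fun _ _ => car_th θ _
theorem GP.ad_zero (X : GP G Z) (R : ℕ) : X.Ad R 0 0 := by
  refine ⟨⟨0, fun _ _ => by simp⟩, X.l1_zero.dom 0 fun n x => by simp [GP.car],
    fun δ hδ => ⟨0, Eventually.of_forall fun n x _ => ?_⟩⟩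
  simpa using hδ.le
theorem GP.Ad.add (hU : X.Ad R f U) (hV : X.Ad R f' V) : X.Ad R (f + f') (U + V) := by
  obtain ⟨C, hC⟩ := hU.bdd
  obtain ⟨C', hC'⟩ := hV.bdd
  refine ⟨⟨C + C', fun n x => (abs_add_le _ _).trans (add_le_add (hC n x) (hC' n x))⟩,
    (hU.en.add hV.en).dom 2 fun n x => ?_, fun δ hδ => ?_⟩
  · rw [abs_of_nonneg (X.car_nonneg R _ x)]
    exact (car_two X R _ _ x).trans (mul_le_mul_of_nonneg_left (le_abs_self _) zero_le_two)
  · obtain ⟨k, hk⟩ := hU.lm (δ / 2) (half_pos hδ)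
    obtain ⟨k', hk'⟩ := hV.lm (δ / 2) (half_pos hδ)
    refine ⟨max k k', ?_⟩
    filter_upwards [hk, hk'] with n h1 h2 x hx
    have h3 := abs_le.1 (h1 x ((le_max_left _ _).trans hx))
    have h4 := abs_le.1 (h2 x ((le_max_right _ _).trans hx))
    simp only [Pi.add_apply, ContinuousMap.add_apply]
    exact abs_le.2 ⟨by linarith [h3.1, h4.1], by linarith [h3.2, h4.2]⟩
theorem GP.Ad.smul (hU : X.Ad R f U) (c : ℝ) : X.Ad R (c • f) (c • U) := by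
  obtain ⟨C, hC⟩ := hU.bdd
  refine ⟨⟨|c| * C, fun n x => ?_⟩, hU.en.dom (c ^ 2) fun n x => ?_, fun δ hδ => ?_⟩
  · simp only [Pi.smul_apply, smul_eq_mul, abs_mul]
    exact mul_le_mul_of_nonneg_left (hC n x) (abs_nonneg _)
  · rw [Pi.smul_apply, car_sq, abs_mul, abs_of_nonneg (sq_nonneg c)]
  · obtain ⟨k, hk⟩ := hU.lm (δ / (|c| + 1)) (by positivity)
    refine ⟨k, ?_⟩
    filter_upwards [hk] with n h1 x hx
    have h2 := h1 x hx
    rw [le_div_iff₀ (by positivity)] at h2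
    simp only [Pi.smul_apply, ContinuousMap.smul_apply, smul_eq_mul]
    rw [← mul_sub, abs_mul]
    nlinarith [abs_nonneg (U n x - f (X.π x))]
theorem GP.Bf_comm (X : GP G Z) (R : ℕ) (θ : C(Z, ℝ)) (U V : ℕ → G → ℝ) :
    X.Bf R θ U V = X.Bf R θ V U := by
  simp only [GP.Bf, X.car_comm R (U _)]
theorem GP.Bf_one (X : GP G Z) (R : ℕ) (U V : ℕ → G → ℝ) :
    X.Bf R 1 U V = X.Lam fun n => X.car R (U n) (V n) := by
  simp only [GP.Bf, ContinuousMap.one_apply, one_mul]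
theorem GP.Bf_add_left (hU : X.Ad R f U) (hV : X.Ad R f' V) (hH : X.Ad R h H) (θ : C(Z, ℝ)) :
    X.Bf R θ (U + V) H = X.Bf R θ U H + X.Bf R θ V H := by
  simp only [GP.Bf, Pi.add_apply, X.car_add, mul_add]
  exact GP.Lam_add (hU.l1c hH θ) (hV.l1c hH θ)
theorem GP.Bf_smul_left (hU : X.Ad R f U) (hH : X.Ad R h H) (c : ℝ) (θ : C(Z, ℝ)) :
    X.Bf R θ (c • U) H = c * X.Bf R θ U H := by
  simp only [GP.Bf, Pi.smul_apply, X.car_smul, mul_left_comm _ c]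
  exact GP.Lam_mul (hU.l1c hH θ) c
theorem GP.Bf_add (hU : X.Ad R f U) (hV : X.Ad R f' V) (θ θ' : C(Z, ℝ)) :
    X.Bf R (θ + θ') U V = X.Bf R θ U V + X.Bf R θ' U V := by
  simp only [GP.Bf, ContinuousMap.add_apply, add_mul]
  exact GP.Lam_add (hU.l1c hV θ) (hU.l1c hV θ')
theorem GP.Bf_smul (hU : X.Ad R f U) (hV : X.Ad R f' V) (c : ℝ) (θ : C(Z, ℝ)) :
    X.Bf R (c • θ) U V = c * X.Bf R θ U V := by
  simp only [GP.Bf, ContinuousMap.smul_apply, smul_eq_mul, mul_assoc]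
  exact GP.Lam_mul (hU.l1c hV θ) c
theorem GP.Bf_nonneg (hU : X.Ad R f U) (h0 : ∀ ξ, 0 ≤ θ ξ) : 0 ≤ X.Bf R θ U U :=
  GP.Lam_nonneg (hU.l1c hU θ) fun _ x => mul_nonneg (h0 _) (X.car_nonneg R _ x)
theorem GP.Bf_eq (hU : X.Ad R f U) (hV : X.Ad R f' V) {a : ℕ → G → ℝ} {C : ℝ}
    (ha : ∀ n x, |a n x| ≤ C) (hl : X.Lm θ a) :
    (X.Lam fun n x => a n x * X.car R (U n) (V n) x) = X.Bf R θ U V := by
  refine GP.Lam_congr (hU.l1 hV ha) (hU.l1c hV θ) (hU.en.add hV.en) fun δ hδ => ?_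
  obtain ⟨k, hk⟩ := hl δ hδ
  refine ⟨k, ?_⟩
  filter_upwards [hk] with n h1 x hx
  rw [← sub_mul, abs_mul]
  exact mul_le_mul (h1 x hx) (car_abs X R _ _ x) (abs_nonneg _) hδ.le
theorem GP.step_small (X : GP G Z) (R : ℕ) {δ : ℝ} (hδ : 0 < δ) :
    ∃ k₀ : ℕ, ∀ x, k₀ ≤ X.ν x → ∀ s ∈ X.B R, dist (X.π (x * s)) (X.π x) ≤ δ := by
  obtain ⟨κ, hκ, h1⟩ := X.step R
  obtain ⟨k, hk⟩ := exists_pow_lt_of_lt_one (div_pos hδ hκ) X.q_lt
  refine ⟨k, fun x hx s hs => (h1 x s (X.mem_B.1 hs)).trans ?_⟩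
  rw [lt_div_iff₀' hκ] at hk
  exact (mul_le_mul_of_nonneg_left (pow_le_pow_of_le_one X.q_pos.le X.q_lt.le hx) hκ.le).trans
    hk.le
theorem GP.step_cont (X : GP G Z) (R : ℕ) (θ : C(Z, ℝ)) {δ : ℝ} (hδ : 0 < δ) :
    ∃ k₀ : ℕ, ∀ x, k₀ ≤ X.ν x → ∀ s ∈ X.B R, |θ (X.π (x * s)) - θ (X.π x)| ≤ δ := by
  obtain ⟨ε, hε, h1⟩ := Metric.uniformContinuous_iff_le.1
    (CompactSpace.uniformContinuous_of_continuous θ.continuous) δ hδ
  obtain ⟨k, hk⟩ := X.step_small R hε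
  exact ⟨k, fun x hx s hs => h1 (hk x hx s hs)⟩
theorem GP.nu_le (X : GP G Z) {R : ℕ} {s : G} (hs : s ∈ X.B R) (x : G) :
    X.ν x ≤ X.ν (x * s) + R := by
  have h1 := X.wn.mul (x * s) s⁻¹
  rw [mul_inv_cancel_right, X.wn.inv] at h1
  have h2 := X.mem_B.1 hs
  omega

end Vale.Agent.P198
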