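import Vale.Agent.P198.G.Main

/-! # P198 D/Defs

Definitions of block D (FROZEN, owner helper53).  `Lam F` is the ultralimit of the weighted sums of `F n`,
`car` the discrete carre du champ, `Ad f U` says that the bounded-energy sequence `U` approximates `f ∘ π` on deep levels,
`Bf θ U V` is the limit energy form.  `Pre` lists the properties used by the abstract construction.
-/

set_option linter.unusedSectionVars false

namespace Vale.Agent.P198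
open Set Metric Filter Topology MeasureTheory
variable {G Z : Type} [Group G] [MetricSpace Z] [CompactSpace Z] [MulAction G Z]
  [ContinuousConstSMul G Z]

/-- The weight of level `k` at stage `n`. -/
noncomputable def dwt (n k : ℕ) : ℝ := 1 / ((n : ℝ) + 2) * (1 - 1 / ((n : ℝ) + 2)) ^ k

/-- The ultrafilter along which limits are taken. -/
noncomputable abbrev uf : Filter ℕ := (hyperfilter ℕ : Filter ℕ)

/-- The discrete carre du champ. -/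
noncomputable def GP.car (X : GP G Z) (R : ℕ) (U V : G → ℝ) (x : G) : ℝ :=
  ∑ s ∈ X.B R, (U (x * s) - U x) * (V (x * s) - V x)

/-- The weighted sum at stage `n`. -/
noncomputable def GP.Sm (X : GP G Z) (n : ℕ) (F : G → ℝ) : ℝ := ∑' x, dwt n (X.ν x) * F x

/-- The ultralimit of the weighted sums. -/
noncomputable def GP.Lam (X : GP G Z) (F : ℕ → G → ℝ) : ℝ := limUnder uf fun n => X.Sm n (F n)

/-- Bounded families with bounded weighted sums. -/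
structure GP.L1 (X : GP G Z) (F : ℕ → G → ℝ) : Prop where
  bdd : ∃ C : ℝ, ∀ n x, |F n x| ≤ C
  sum : ∃ M : ℝ, ∀ (n : ℕ) (s : Finset G), ∑ x ∈ s, dwt n (X.ν x) * |F n x| ≤ M

/-- `U n x` is close to `f (π x)` on deep levels, for most `n`. -/
def GP.Lm (X : GP G Z) (f : Z → ℝ) (U : ℕ → G → ℝ) : Prop :=
  ∀ δ > 0, ∃ k₀ : ℕ, ∀ᶠ n in uf, ∀ x, k₀ ≤ X.ν x → |U n x - f (X.π x)| ≤ δ

/-- Admissible sequences. -/
structure GP.Ad (X : GP G Z) (R : ℕ) (f : C(Z, ℝ)) (U : ℕ → G → ℝ) : Prop where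
  bdd : ∃ C : ℝ, ∀ n x, |U n x| ≤ C
  en : X.L1 fun n => X.car R (U n) (U n)
  lm : X.Lm f U

/-- The limit energy form with multiplier `θ`. -/
noncomputable def GP.Bf (X : GP G Z) (R : ℕ) (θ : C(Z, ℝ)) (U V : ℕ → G → ℝ) : ℝ :=
  X.Lam fun n x => θ (X.π x) * X.car R (U n) (V n) x

/-- The data used by the abstract construction. -/
structure Pre (X : GP G Z) (R : ℕ) (V : Type) [AddCommGroup V] [Module ℝ V] where
  p : V →ₗ[ℝ] C(Z, ℝ)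
  B : C(Z, ℝ) →ₗ[ℝ] V →ₗ[ℝ] V →ₗ[ℝ] ℝ
  symm : ∀ θ u v, B θ u v = B θ v u
  pos : ∀ (θ : C(Z, ℝ)) v, (∀ ξ, 0 ≤ θ ξ) → 0 ≤ B θ v v
  diag : ∀ (f : C(Z, ℝ)) (M : ℝ), (∀ η > 0, ∃ v, dist (p v) f ≤ η ∧ B 1 v v ≤ M + η) →
    ∃ v, p v = f ∧ B 1 v v ≤ M
  comp : ∀ v₁ v₂ (L : ℝ) (T : ℝ × ℝ → ℝ), Lip2 L T → ∃ v, (∀ ξ, p v ξ = T (p v₁ ξ, p v₂ ξ)) ∧
    ∀ θ : C(Z, ℝ), (∀ ξ, 0 ≤ θ ξ) → B θ v v ≤ L * (B θ v₁ v₁ + B θ v₂ v₂)
  mul : ∀ u v, ∃ y, p y = p u * p v ∧ ∀ θ w, B θ w y = B (θ * p u) w v + B (θ * p v) w u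
  cut : ∀ ξ : Z, ∀ r > 0, ∃ v, (∀ᶠ ζ in 𝓝 ξ, p v ζ = 1) ∧ (∀ ζ, r ≤ dist ζ ξ → p v ζ = 0) ∧
    ∀ (a : C(Z, ℝ)) w, (∀ ζ, dist ζ ξ < 2 * r → a ζ = 0) → B a w v = 0
  inv : ∀ g : G, ∃ P : V → V, (∀ v, p (P v) = pull g (p v)) ∧
    ∀ θ u v, B (pull g θ) (P u) (P v) = B θ u v
  low : ∀ v (W : Set Z) (m : ℝ) (θ : C(Z, ℝ)), X.Low R (p v) W m → (∀ ξ, 0 ≤ θ ξ) →
    (∀ ξ ∈ W, 1 ≤ θ ξ) → m ≤ B θ v v

/-- Optimal representatives. -/
def Pre.Opt {X : GP G Z} {R : ℕ} {V : Type} [AddCommGroup V] [Module ℝ V] (P : Pre X R V)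
    (v : V) : Prop := ∀ d, P.p d = 0 → P.B 1 v d = 0

end Vale.Agent.P198
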