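import Vale.Agent.P198.D.Car

/-! # P198 D/Diag

The diagonal argument (helper names start with diag_).
`diag_choice`: `A j = {n | ∃ a, P n (1/(j+1)) a}` is in `uf`; put `J n = Nat.findGreatest (fun j => n ∈ A j) n`; `u n` is a witness for `n ∈ A (J n)` if this holds, else `a₀`; for `n ∈ A j`, `j ≤ n`
we have `j ≤ J n` and `n ∈ A (J n)` (`Nat.le_findGreatest`, `Nat.findGreatest_spec`); `uf_le`.
`diag_mod`: with `k₀` from `lm` put `u x = if ν x < k₀ then f' (π x) else U n x`; `car u u x = car (U n) (U n) x` if `k₀ + R ≤ ν x` (`nu_le`), otherwise `car_le`; split the sum over `s` into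
`ν x ≤ k₀ + R` (`fin_small`) and the rest (`sum_le_Sm`, `L1.tendsto`, `Bf_one`).
`diag`: `diag_choice` with `P n η u` the conjunction in `diag_mod` for `f`, `a₀ = 0`; bounded by `‖f‖ + 1`; `Lam_le`.
-/

set_option linter.unusedSectionVars false

namespace Vale.Agent.P198
open Set Metric Filter Topology MeasureTheory
variable {G Z : Type} [Group G] [MetricSpace Z] [CompactSpace Z] [MulAction G Z]
  [ContinuousConstSMul G Z]
  {X : GP G Z} {R : ℕ} {f f' h θ : C(Z, ℝ)} {U V H F F' Y : ℕ → G → ℝ}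

theorem diag_choice {α : Type} (P : ℕ → ℝ → α → Prop) (a₀ : α)
    (mono : ∀ n η η' a, η ≤ η' → P n η a → P n η' a) (hP : ∀ η > 0, ∀ᶠ n in uf, ∃ a, P n η a) :
    ∃ u : ℕ → α, (∀ n, u n = a₀ ∨ P n 1 (u n)) ∧ ∀ η > 0, ∀ᶠ n in uf, P n η (u n) := by
  classical
  let J : ℕ → ℕ := fun n => Nat.findGreatest (fun j : ℕ => ∃ a, P n (1 / ((j : ℝ) + 1)) a) n
  refine ⟨fun n => if h : ∃ a, P n (1 / ((J n : ℝ) + 1)) a then h.choose else a₀, fun n => ?_,
    fun η hη => ?_⟩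
  · by_cases h : ∃ a, P n (1 / ((J n : ℝ) + 1)) a
    · right
      simp only [dif_pos h]
      refine mono n _ _ _ ?_ h.choose_spec
      rw [div_le_one (by positivity)]
      linarith [Nat.cast_nonneg (α := ℝ) (J n)]
    · exact Or.inl (dif_neg h)
  · obtain ⟨j, hj⟩ := exists_nat_one_div_lt hη
    filter_upwards [hP _ (Nat.one_div_pos_of_nat (n := j)), uf_le (eventually_ge_atTop j)]
      with n h1 h2
    have h3 : j ≤ J n := Nat.le_findGreatest h2 h1
    have h : ∃ a, P n (1 / ((J n : ℝ) + 1)) a :=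
      Nat.findGreatest_spec (P := fun j : ℕ => ∃ a, P n (1 / ((j : ℝ) + 1)) a) h2 h1
    simp only [dif_pos h]
    exact mono n _ _ _ ((Nat.one_div_le_one_div h3).trans hj.le) h.choose_spec

theorem GP.Ad.diag_mod (hU : X.Ad R f U) {η : ℝ} (hη : 0 < η) :
    ∀ᶠ n in uf, ∃ u : G → ℝ, (∀ x, |u x - f (X.π x)| ≤ η) ∧
      ∀ s : Finset G, ∑ x ∈ s, dwt n (X.ν x) * X.car R u u x ≤ X.Bf R 1 U U + η := by
  classical
  obtain ⟨C, hC⟩ := hU.bdd
  obtain ⟨k₀, hk⟩ := hU.lm η hη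
  filter_upwards [hk, X.fin_small (k₀ + R) ((X.B R).card * (2 * max C ‖f‖) ^ 2) (half_pos hη),
    hU.en.tendsto.eventually (gt_mem_nhds (lt_add_of_pos_right _ (half_pos hη)))] with n h1 h2 h3
  obtain ⟨u, hu⟩ : ∃ u : G → ℝ, ∀ x, u x = if X.ν x < k₀ then f (X.π x) else U n x :=
    ⟨_, fun _ => rfl⟩
  have hb : ∀ x, |u x| ≤ max C ‖f‖ := fun x => by
    rw [hu]
    split_ifs
    · exact (f.norm_coe_le_norm _).trans (le_max_right _ _)
    · exact (hC n x).trans (le_max_left _ _)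
  refine ⟨u, fun x => ?_, fun s => ?_⟩
  · rw [hu]
    split_ifs with h4
    · rw [sub_self, abs_zero]
      exact hη.le
    · exact h1 x (not_lt.1 h4)
  have h4 : ∀ x ∈ s, dwt n (X.ν x) * X.car R u u x ≤
      (if x ∈ X.B (k₀ + R) then dwt n (X.ν x) * ((X.B R).card * (2 * max C ‖f‖) ^ 2) else 0) +
        dwt n (X.ν x) * X.car R (U n) (U n) x := by
    intro x _
    split_ifs with h5
    · exact le_add_of_le_of_nonneg
        (mul_le_mul_of_nonneg_left (X.car_le R hb x) (wt_pos _ _).le)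
        (mul_nonneg (wt_pos _ _).le (X.car_nonneg R _ x))
    · rw [X.mem_B, not_le] at h5
      rw [zero_add]
      refine le_of_eq (congrArg _ (Finset.sum_congr rfl fun t ht => ?_))
      have h6 := X.nu_le ht x
      rw [hu, hu, if_neg (by omega), if_neg (by omega)]
  refine (Finset.sum_le_sum h4).trans ?_
  rw [Finset.sum_add_distrib, Finset.sum_ite_mem, X.Bf_one]
  have h5 : ∑ x ∈ s ∩ X.B (k₀ + R), dwt n (X.ν x) * ((X.B R).card * (2 * max C ‖f‖) ^ 2) ≤
      ∑ x ∈ X.B (k₀ + R), dwt n (X.ν x) * ((X.B R).card * (2 * max C ‖f‖) ^ 2) :=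
    Finset.sum_le_sum_of_subset_of_nonneg Finset.inter_subset_right fun x _ _ =>
      mul_nonneg (wt_pos _ _).le (by positivity)
  have h6 := GP.sum_le_Sm hU.en (fun n x => X.car_nonneg R _ x) n s
  linarith

theorem GP.diag (X : GP G Z) (R : ℕ) (f : C(Z, ℝ)) (M : ℝ)
    (hM : ∀ η > 0, ∃ (f' : C(Z, ℝ)) (U : ℕ → G → ℝ), X.Ad R f' U ∧ dist f' f ≤ η ∧
      X.Bf R 1 U U ≤ M + η) : ∃ U, X.Ad R f U ∧ X.Bf R 1 U U ≤ M := by
  obtain ⟨u, h1, h2⟩ := diag_choice (fun n η (u : G → ℝ) => (∀ x, |u x - f (X.π x)| ≤ η) ∧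
      ∀ s : Finset G, ∑ x ∈ s, dwt n (X.ν x) * X.car R u u x ≤ M + η) 0
    (fun n η η' a h ha => ⟨fun x => (ha.1 x).trans h, fun s => (ha.2 s).trans (by linarith)⟩)
    fun η hη => by
      obtain ⟨f', U, hU, h1, h2⟩ := hM (η / 2) (half_pos hη)
      filter_upwards [hU.diag_mod (half_pos hη)] with n ⟨u, h3, h4⟩
      refine ⟨u, fun x => ?_, fun s => by linarith [h4 s]⟩
      have h5 := (ContinuousMap.dist_apply_le_dist (X.π x)).trans h1
      rw [Real.dist_eq] at h5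
      linarith [abs_sub_le (u x) (f' (X.π x)) (f (X.π x)), h3 x]
  have hb : ∀ n x, |u n x| ≤ ‖f‖ + 1 := fun n x => by
    rcases h1 n with h | h
    · rw [h, Pi.zero_apply, abs_zero]
      positivity
    · have h3 : |f (X.π x)| ≤ ‖f‖ := f.norm_coe_le_norm _
      linarith [abs_sub_abs_le_abs_sub (u n x) (f (X.π x)), h.1 x]
  have hL : X.L1 fun n => X.car R (u n) (u n) := by
    refine ⟨⟨_, fun n x => (abs_of_nonneg (X.car_nonneg R _ x)).trans_le (X.car_le R (hb n) x)⟩,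
      max 0 (M + 1), fun n s => ?_⟩
    rcases h1 n with h | h
    · simp [h, GP.car]
    · simp only [abs_of_nonneg (X.car_nonneg R _ _)]
      exact (h.2 s).trans (le_max_right _ _)
  refine ⟨u, ⟨⟨_, hb⟩, hL, fun δ hδ => ⟨0, (h2 δ hδ).mono fun n hn x _ => hn.1 x⟩⟩, ?_⟩
  rw [X.Bf_one]
  exact GP.Lam_le hL fun η hη => (h2 η hη).mono fun n hn => hn.2

end Vale.Agent.P198
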