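import Vale.Agent.P198.D.Defs

/-! # P198 D/Lam

The functional `Lam` (helper names start with lam_).  Owner helper53.
-/

set_option linter.unusedSectionVars false

namespace Vale.Agent.P198
open Set Metric Filter Topology MeasureTheory
variable {G Z : Type} [Group G] [MetricSpace Z] [CompactSpace Z] [MulAction G Z]
  [ContinuousConstSMul G Z]
  {X : GP G Z} {R : ℕ} {f f' h θ : C(Z, ℝ)} {U V H F F' Y : ℕ → G → ℝ}

theorem lam_rho (n : ℕ) : 0 < 1 - 1 / ((n : ℝ) + 2) ∧ 1 - 1 / ((n : ℝ) + 2) < 1 := by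
  have h1 : (0 : ℝ) < 1 / ((n : ℝ) + 2) := by positivity
  have h2 : 1 / ((n : ℝ) + 2) < 1 := by
    rw [div_lt_one (by positivity)]
    linarith [n.cast_nonneg (α := ℝ)]
  constructor <;> linarith

theorem lam_inv : Tendsto (fun n : ℕ => 1 / ((n : ℝ) + 2)) atTop (𝓝 0) :=
  tendsto_const_nhds.div_atTop (tendsto_atTop_add_const_right _ _ tendsto_natCast_atTop_atTop)


theorem wt_pos (n k : ℕ) : 0 < dwt n k := by
  exact mul_pos (by positivity) (pow_pos (lam_rho n).1 k)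
theorem wt_le (n k : ℕ) : dwt n k ≤ 1 / ((n : ℝ) + 2) := by
  exact mul_le_of_le_one_right (by positivity) (pow_le_one₀ (lam_rho n).1.le (lam_rho n).2.le)
theorem wt_add (n k j : ℕ) : dwt n (k + j) = dwt n k * (1 - 1 / ((n : ℝ) + 2)) ^ j := by
  rw [dwt, dwt, pow_add, mul_assoc]
theorem wt_hasSum (n : ℕ) : HasSum (dwt n) 1 := by
  have := (hasSum_geometric_of_lt_one (lam_rho n).1.le (lam_rho n).2).mul_left (1 / ((n : ℝ) + 2))
  rwa [sub_sub_cancel, mul_inv_cancel₀ (by positivity)] at this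
theorem uf_le : uf ≤ atTop := by
  exact Nat.hyperfilter_le_atTop
theorem uf_rho (j : ℕ) : Tendsto (fun n : ℕ => (1 - 1 / ((n : ℝ) + 2)) ^ j) uf (𝓝 1) := by
  have := ((lam_inv.const_sub 1).pow j).mono_left uf_le
  rwa [sub_zero, one_pow] at this
theorem GP.fin_small (X : GP G Z) (k : ℕ) (C : ℝ) {η : ℝ} (hη : 0 < η) :
    ∀ᶠ n in uf, ∑ x ∈ X.B k, dwt n (X.ν x) * C ≤ η := by
  have h1 := (lam_inv.const_mul (((X.B k).card : ℝ) * |C|)).mono_left uf_le
  rw [mul_zero] at h1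
  filter_upwards [h1.eventually (ge_mem_nhds hη)] with n hn
  refine le_trans ?_ hn
  refine (Finset.sum_le_card_nsmul _ _ (|C| * (1 / ((n : ℝ) + 2))) fun x _ => ?_).trans_eq ?_
  · rw [mul_comm]
    exact mul_le_mul (le_abs_self C) (wt_le _ _) (wt_pos _ _).le (abs_nonneg C)
  · rw [nsmul_eq_mul, mul_assoc]

theorem lam_abs (hF : X.L1 F) (n : ℕ) : Summable fun x => dwt n (X.ν x) * |F n x| := by
  obtain ⟨M, hM⟩ := hF.sum
  exact summable_of_sum_le (fun x => mul_nonneg (wt_pos _ _).le (abs_nonneg _)) (hM n)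

theorem GP.L1.summable (hF : X.L1 F) (n : ℕ) : Summable fun x => dwt n (X.ν x) * F n x := by
  refine (lam_abs hF n).of_norm_bounded fun x => ?_
  rw [Real.norm_eq_abs, abs_mul, abs_of_pos (wt_pos _ _)]
theorem GP.L1.tendsto (hF : X.L1 F) : Tendsto (fun n => X.Sm n (F n)) uf (𝓝 (X.Lam F)) := by
  obtain ⟨M, hM⟩ := hF.sum
  have hb : ∀ n, X.Sm n (F n) ∈ closedBall (0 : ℝ) M := fun n => by
    rw [mem_closedBall_zero_iff]
    refine tsum_of_norm_bounded (lam_abs hF n).hasSum (fun x => ?_) |>.trans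
      ((lam_abs hF n).tsum_le_of_sum_le (hM n))
    rw [Real.norm_eq_abs, abs_mul, abs_of_pos (wt_pos _ _)]
  obtain ⟨c, -, hc⟩ := (isCompact_closedBall (0 : ℝ) M).ultrafilter_le_nhds
    ((hyperfilter ℕ).map fun n => X.Sm n (F n)) (by
      rw [Ultrafilter.coe_map, ← Tendsto, tendsto_principal]
      exact Eventually.of_forall hb)
  exact tendsto_nhds_limUnder ⟨c, hc⟩
theorem GP.L1.dom (hY : X.L1 Y) (C : ℝ) (hF : ∀ n x, |F n x| ≤ C * |Y n x|) : X.L1 F := by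
  obtain ⟨B, hB⟩ := hY.bdd
  obtain ⟨M, hM⟩ := hY.sum
  have h1 : ∀ n x, |F n x| ≤ |C| * |Y n x| := fun n x =>
    (hF n x).trans (mul_le_mul_of_nonneg_right (le_abs_self C) (abs_nonneg _))
  refine ⟨⟨|C| * B, fun n x => (h1 n x).trans (mul_le_mul_of_nonneg_left (hB n x) (abs_nonneg C))⟩,
    |C| * M, fun n s => le_trans ?_ (mul_le_mul_of_nonneg_left (hM n s) (abs_nonneg C))⟩
  rw [Finset.mul_sum]
  refine Finset.sum_le_sum fun x _ => ?_
  rw [mul_left_comm]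
  exact mul_le_mul_of_nonneg_left (h1 n x) (wt_pos _ _).le
theorem GP.L1.add (hF : X.L1 F) (hF' : X.L1 F') : X.L1 fun n x => F n x + F' n x := by
  obtain ⟨B, hB⟩ := hF.bdd
  obtain ⟨M, hM⟩ := hF.sum
  obtain ⟨B', hB'⟩ := hF'.bdd
  obtain ⟨M', hM'⟩ := hF'.sum
  refine ⟨⟨B + B', fun n x => (abs_add_le _ _).trans (add_le_add (hB n x) (hB' n x))⟩,
    M + M', fun n s => le_trans ?_ (add_le_add (hM n s) (hM' n s))⟩
  rw [← Finset.sum_add_distrib]
  refine Finset.sum_le_sum fun x _ => ?_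
  rw [← mul_add]
  exact mul_le_mul_of_nonneg_left (abs_add_le _ _) (wt_pos _ _).le
theorem GP.L1.sub (hF : X.L1 F) (hF' : X.L1 F') : X.L1 fun n x => F n x - F' n x := by
  simpa only [sub_eq_add_neg] using
    hF.add (hF'.dom 1 (F := fun n x => -F' n x) fun n x => by rw [abs_neg, one_mul])
theorem GP.L1.const_mul (hF : X.L1 F) (c : ℝ) : X.L1 fun n x => c * F n x := by
  exact hF.dom |c| fun n x => (abs_mul _ _).le
theorem GP.l1_zero (X : GP G Z) : X.L1 fun _ _ => 0 := by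
  exact ⟨⟨0, fun _ _ => abs_zero.le⟩, 0, fun n s => by simp⟩

theorem lam_eq {c : ℝ} (hc : Tendsto (fun n => X.Sm n (F n)) uf (𝓝 c)) : X.Lam F = c :=
  hc.limUnder_eq

theorem GP.Lam_add (hF : X.L1 F) (hF' : X.L1 F') :
    (X.Lam fun n x => F n x + F' n x) = X.Lam F + X.Lam F' := by
  refine lam_eq ((hF.tendsto.add hF'.tendsto).congr fun n => ?_)
  simp only [GP.Sm, mul_add]
  exact ((hF.summable n).tsum_add (hF'.summable n)).symm
theorem GP.Lam_sub (hF : X.L1 F) (hF' : X.L1 F') :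
    (X.Lam fun n x => F n x - F' n x) = X.Lam F - X.Lam F' := by
  refine lam_eq ((hF.tendsto.sub hF'.tendsto).congr fun n => ?_)
  simp only [GP.Sm, mul_sub]
  exact ((hF.summable n).tsum_sub (hF'.summable n)).symm
theorem GP.Lam_mul (hF : X.L1 F) (c : ℝ) : (X.Lam fun n x => c * F n x) = c * X.Lam F := by
  refine lam_eq ((hF.tendsto.const_mul c).congr fun n => ?_)
  simp only [GP.Sm, mul_left_comm _ c]
  exact tsum_mul_left.symm
theorem GP.Lam_mono (hF : X.L1 F) (hF' : X.L1 F') (hle : ∀ n x, F n x ≤ F' n x) :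
    X.Lam F ≤ X.Lam F' := by
  refine le_of_tendsto_of_tendsto' hF.tendsto hF'.tendsto fun n => ?_
  exact (hF.summable n).tsum_le_tsum
    (fun x => mul_le_mul_of_nonneg_left (hle n x) (wt_pos _ _).le) (hF'.summable n)
theorem GP.Lam_nonneg (hF : X.L1 F) (h0 : ∀ n x, 0 ≤ F n x) : 0 ≤ X.Lam F := by
  exact ge_of_tendsto' hF.tendsto fun n => tsum_nonneg fun x => mul_nonneg (wt_pos _ _).le (h0 n x)
theorem GP.sum_le_Sm (hF : X.L1 F) (h0 : ∀ n x, 0 ≤ F n x) (n : ℕ) (s : Finset G) :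
    ∑ x ∈ s, dwt n (X.ν x) * F n x ≤ X.Sm n (F n) := by
  exact (hF.summable n).sum_le_tsum s fun x _ => mul_nonneg (wt_pos _ _).le (h0 n x)
theorem GP.Lam_le (hF : X.L1 F) {M : ℝ}
    (hM : ∀ η > 0, ∀ᶠ n in uf, ∀ s : Finset G, ∑ x ∈ s, dwt n (X.ν x) * F n x ≤ M + η) :
    X.Lam F ≤ M := by
  refine le_of_forall_pos_le_add fun η hη => le_of_tendsto hF.tendsto ?_
  filter_upwards [hM η hη] with n hn
  exact (hF.summable n).tsum_le_of_sum_le hn

theorem lam_small_le (hF : X.L1 F) (hY : X.L1 Y)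
    (hs : ∀ δ > 0, ∃ k₀ : ℕ, ∀ᶠ n in uf, ∀ x, k₀ ≤ X.ν x → |F n x| ≤ δ * |Y n x|) :
    X.Lam F ≤ 0 := by
  obtain ⟨C, hC⟩ := hF.bdd
  obtain ⟨M, hM⟩ := hY.sum
  have hM0 : 0 ≤ M := by simpa using hM 0 ∅
  refine GP.Lam_le hF fun η hη => ?_
  obtain ⟨k₀, hk⟩ := hs (η / 2 / (M + 1)) (by positivity)
  filter_upwards [hk, X.fin_small k₀ C (half_pos hη)] with n h1 h2 s
  classical
  rw [← Finset.sum_filter_add_sum_filter_not s fun x => k₀ ≤ X.ν x]
  have e1 : ∑ x ∈ s with k₀ ≤ X.ν x, dwt n (X.ν x) * F n x ≤ η / 2 / (M + 1) * M := by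
    refine le_trans ?_ (mul_le_mul_of_nonneg_left (hM n (s.filter fun x => k₀ ≤ X.ν x))
      (by positivity))
    rw [Finset.mul_sum]
    refine Finset.sum_le_sum fun x hx => ?_
    rw [mul_left_comm]
    exact mul_le_mul_of_nonneg_left ((le_abs_self _).trans (h1 x (Finset.mem_filter.1 hx).2))
      (wt_pos _ _).le
  have e2 : ∑ x ∈ s with ¬k₀ ≤ X.ν x, dwt n (X.ν x) * F n x ≤ η / 2 := by
    refine le_trans ?_ h2
    refine (Finset.sum_le_sum fun x _ => mul_le_mul_of_nonneg_left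
      ((le_abs_self _).trans (hC n x)) (wt_pos _ _).le).trans ?_
    refine Finset.sum_le_sum_of_subset_of_nonneg (fun x hx => X.mem_B.2 ?_) fun x _ _ =>
      mul_nonneg (wt_pos _ _).le ((abs_nonneg _).trans (hC n x))
    exact (not_le.1 (Finset.mem_filter.1 hx).2).le
  have e3 : η / 2 / (M + 1) * M ≤ η / 2 := by
    rw [div_mul_eq_mul_div, div_le_iff₀ (by positivity)]
    nlinarith
  linarith

theorem GP.Lam_small (hF : X.L1 F) (hY : X.L1 Y)
    (hs : ∀ δ > 0, ∃ k₀ : ℕ, ∀ᶠ n in uf, ∀ x, k₀ ≤ X.ν x → |F n x| ≤ δ * |Y n x|) :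
    X.Lam F = 0 := by
  have h1 := lam_small_le hF hY hs
  have h2 := lam_small_le (hF.const_mul (-1)) hY (by simpa only [neg_one_mul, abs_neg] using hs)
  rw [GP.Lam_mul hF] at h2
  linarith
theorem GP.Lam_congr (hF : X.L1 F) (hF' : X.L1 F') (hY : X.L1 Y)
    (hs : ∀ δ > 0, ∃ k₀ : ℕ, ∀ᶠ n in uf, ∀ x, k₀ ≤ X.ν x → |F n x - F' n x| ≤ δ * |Y n x|) :
    X.Lam F = X.Lam F' := by
  have := GP.Lam_small (hF.sub hF') hY hs
  rwa [GP.Lam_sub hF hF', sub_eq_zero] at this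

end Vale.Agent.P198
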