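import Vale.Agent.P198.D.Build
import Vale.Agent.P198.D.AbsC

/-! # P198 block D: the invariant Dirichlet structure (interface) -/

namespace Vale.Agent.P198
open Set Metric Filter Topology MeasureTheory
variable {G Z : Type} [Group G] [MetricSpace Z] [CompactSpace Z] [MulAction G Z]
  [ContinuousConstSMul G Z] [MeasurableSpace Z] [BorelSpace Z]

theorem GP.df (X : GP G Z) {R : ℕ} (h : X.RO R) : Nonempty (DF G Z) :=
  h.pre.elim fun P => P.df h

end Vale.Agent.P198
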